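import Vale.Agent.P097.H244.Kill2

/-! # P097 / H244: the abstract kill, conclusion. -/

set_option linter.all false

open Complex Metric Filter Topology Set
open scoped ComplexConjugate

namespace Vale.Agent.P097.H244

/-- germ data on a fixed ball -/
structure Germ (v : ℂ → ℂ) (κ w r : ℝ) (f : ℂ → ℂ) : Prop where
  hr : 0 < r
  d : ∀ V ∈ ball (0 : ℂ) r, DifferentiableAt ℂ f V
  odd : ∀ V ∈ ball (0 : ℂ) r, f (-V) = -f V
  ne : ∀ V ∈ ball (0 : ℂ) r, V ≠ 0 → f V ≠ 0
  ch : ∀ s : ℂ, κ / 2 * ‖s‖ < r → f (v s) = -(exp (w * s) * f (v (-s)))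

theorem exists_germ {v : ℂ → ℂ} {κ w : ℝ} {f : ℂ → ℂ} (hκ : 0 < κ) (hf : AnalyticAt ℂ f 0)
    (hne : ¬ ∀ᶠ A in 𝓝 (0 : ℂ), f A = 0) (hodd : ∀ᶠ A in 𝓝 (0 : ℂ), f (-A) = -f A)
    (hch : ∀ᶠ s in 𝓝 (0 : ℂ), f (v s) = -(exp (w * s) * f (v (-s)))) :
    ∃ r, Germ v κ w r f := by
  have h1 : ∀ᶠ A in 𝓝 (0 : ℂ), DifferentiableAt ℂ f A :=
    hf.eventually_analyticAt.mono fun _ h => h.differentiableAt
  have h2 : ∀ᶠ A in 𝓝 (0 : ℂ), A ≠ 0 → f A ≠ 0 := by
    rcases hf.eventually_eq_zero_or_eventually_ne_zero with h | h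
    · exact absurd h hne
    · rw [eventually_nhdsWithin_iff] at h
      exact h
  obtain ⟨r1, hr1, h3⟩ := Metric.eventually_nhds_iff_ball.1 (h1.and (h2.and hodd))
  obtain ⟨r2, hr2, h4⟩ := Metric.eventually_nhds_iff_ball.1 hch
  refine ⟨min r1 (κ / 2 * r2), lt_min hr1 (by positivity), ?_, ?_, ?_, ?_⟩
  · intro V hV
    exact (h3 V (ball_subset_ball (min_le_left _ _) hV)).1
  · intro V hV
    exact (h3 V (ball_subset_ball (min_le_left _ _) hV)).2.2
  · intro V hV
    exact (h3 V (ball_subset_ball (min_le_left _ _) hV)).2.1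
  · intro s hs
    apply h4
    rw [mem_ball_zero_iff]
    have := hs.trans_le (min_le_right _ _)
    by_contra h6
    push Not at h6
    nlinarith

/-- partial extension -/
noncomputable def GG (v σ f : ℂ → ℂ) (w : ℝ) (n : ℕ) (V : ℂ) : ℂ :=
  exp (w * ∑ j ∈ Finset.range n, σ ((TT v σ)^[j] V)) * f ((TT v σ)^[n] V)

variable {v : ℂ → ℂ} {κ L lam w r : ℝ} {σ f : ℂ → ℂ}

theorem step_small (H : Inv v κ L σ) (K : KD v κ L lam) (G : Germ v κ w r f) {V : ℂ}
    (hV : V ∈ WW κ L) (hr : ‖V‖ < r) : f V = exp (w * σ V) * f (TT v σ V) := by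
  have h1 := G.ch (σ V) ((H.lipz K hV).trans_lt hr)
  rw [H.eq V hV, G.odd V (mem_ball_zero_iff.2 hr)] at h1
  show f V = exp (w * σ V) * f (v (-σ V))
  linear_combination -h1

theorem GG_succ (H : Inv v κ L σ) (K : KD v κ L lam) (G : Germ v κ w r f) {V : ℂ}
    (hV : V ∈ WW κ L) {n : ℕ} (hr : ‖(TT v σ)^[n] V‖ < r) :
    GG v σ f w (n + 1) V = GG v σ f w n V := by
  unfold GG
  rw [Finset.sum_range_succ, mul_add, Complex.exp_add, Function.iterate_succ_apply', mul_assoc,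
    ← step_small H K G (H.it_mem K hV n) hr]

theorem GG_const (H : Inv v κ L σ) (K : KD v κ L lam) (G : Germ v κ w r f) {V : ℂ}
    (hV : V ∈ WW κ L) {n m : ℕ} (hnm : n ≤ m) (hr : ‖(TT v σ)^[n] V‖ < r) :
    GG v σ f w m V = GG v σ f w n V := by
  induction m, hnm using Nat.le_induction with
  | base => rfl
  | succ m hm ih =>
    rw [GG_succ H K G hV ((H.it_anti K hV hm).trans_lt hr), ih]

theorem GG_shift (V : ℂ) (n : ℕ) :
    GG v σ f w (n + 1) V = exp (w * σ V) * GG v σ f w n (TT v σ V) := by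
  unfold GG
  rw [Finset.sum_range_succ', mul_add, Complex.exp_add]
  simp only [Function.iterate_succ_apply, Function.iterate_zero, id_eq]
  ring

theorem GG_diff (H : Inv v κ L σ) (K : KD v κ L lam) (G : Germ v κ w r f) {V : ℂ}
    (hV : V ∈ WW κ L) {n : ℕ} (hr : ‖(TT v σ)^[n] V‖ < r) :
    DifferentiableAt ℂ (GG v σ f w n) V := by
  unfold GG
  refine DifferentiableAt.mul ?_ ?_
  · refine DifferentiableAt.cexp (DifferentiableAt.const_mul ?_ _)
    refine DifferentiableAt.fun_sum fun j _ => ?_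
    exact DifferentiableAt.comp (g := σ) V (H.dσ K (H.it_mem K hV j)) (H.dit K hV j)
  · exact DifferentiableAt.comp (g := f) V (G.d _ (mem_ball_zero_iff.2 hr)) (H.dit K hV n)

/-- the extension -/
structure Ext (v σ f : ℂ → ℂ) (κ L w r : ℝ) (F : ℂ → ℂ) : Prop where
  small : ∀ V ∈ ball (0 : ℂ) r, F V = f V
  dW : ∀ V ∈ WW κ L, DifferentiableAt ℂ F V
  dB : ∀ V ∈ ball (0 : ℂ) r, DifferentiableAt ℂ F V
  law : ∀ V ∈ WW κ L, F V = exp (w * σ V) * F (TT v σ V)
  ne : ∀ V ∈ WW κ L, F V ≠ 0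

theorem exists_ext (H : Inv v κ L σ) (K : KD v κ L lam) (G : Germ v κ w r f) :
    ∃ F, Ext v σ f κ L w r F := by
  have hr := G.hr
  have hex : ∀ V : ℂ, ∃ N : ℕ, V ∈ WW κ L → ‖(TT v σ)^[N] V‖ < r := by
    intro V
    by_cases hV : V ∈ WW κ L
    · have := (H.orbit K hV).norm
      rw [norm_zero] at this
      obtain ⟨N, hN⟩ := (this.eventually_lt_const hr).exists
      exact ⟨N, fun _ => hN⟩
    · exact ⟨0, fun h => absurd h hV⟩
  choose N hN using hex
  set F : ℂ → ℂ := fun V => if ‖V‖ < r then f V else GG v σ f w (N V) V with hF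
  -- on the region, every good index computes `F`
  have hFG : ∀ V ∈ WW κ L, ∀ n, ‖(TT v σ)^[n] V‖ < r → F V = GG v σ f w n V := by
    intro V hV n hn
    have hN' : ∀ m, ‖(TT v σ)^[m] V‖ < r → GG v σ f w m V = GG v σ f w n V := by
      intro m hm
      rcases le_total m n with h | h
      · exact (GG_const H K G hV h hm).symm
      · exact GG_const H K G hV h hn
    simp only [hF]
    split_ifs with h
    · have := hN' 0 (by simpa using h)
      rw [← this]
      simp [GG]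
    · exact hN' _ (hN V hV)
  have hsmall : ∀ V ∈ ball (0 : ℂ) r, F V = f V := by
    intro V hV
    simp only [hF]
    rw [if_pos (mem_ball_zero_iff.1 hV)]
  refine ⟨F, hsmall, ?_, ?_, ?_, ?_⟩
  · intro V hV
    have hn := hN V hV
    have hcont : ContinuousAt ((TT v σ)^[N V]) V := (H.dit K hV (N V)).continuousAt
    have h1 : ∀ᶠ U in 𝓝 V, ‖(TT v σ)^[N V] U‖ < r := hcont.norm.eventually_lt continuousAt_const hn
    have h2 : F =ᶠ[𝓝 V] GG v σ f w (N V) := by
      filter_upwards [h1, (isOpen_WW κ L).mem_nhds hV] with U hU hUW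
      exact hFG U hUW _ hU
    rw [h2.differentiableAt_iff]
    exact GG_diff H K G hV hn
  · intro V hV
    have h2 : F =ᶠ[𝓝 V] f := by
      filter_upwards [isOpen_ball.mem_nhds hV] with U hU
      exact hsmall U hU
    rw [h2.differentiableAt_iff]
    exact G.d V hV
  · intro V hV
    have hn := hN _ (H.Tmem K hV)
    rw [hFG (TT v σ V) (H.Tmem K hV) _ hn,
      hFG V hV (N (TT v σ V) + 1) (by rw [Function.iterate_succ_apply]; exact hn), GG_shift]
  · intro V hV
    rw [hFG V hV _ (hN V hV)]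
    unfold GG
    refine mul_ne_zero (Complex.exp_ne_zero _) ?_
    refine G.ne _ (mem_ball_zero_iff.2 (hN V hV)) ?_
    have h3 := (H.it_mem K hV (N V)).1
    intro h4
    rw [h4] at h3
    simp at h3

theorem KD.mem_ax (K : KD v κ L lam) {y : ℝ} (h0 : y ≠ 0) (h1 : |y| < L) :
    v (I * y) ∈ WW κ L ∧ v (I * y) - v (-(I * y)) = κ * (I * y) := by
  have hS : (I * y : ℂ) ∈ SS L := by
    show |(I * (y : ℂ)).im| < L
    simpa using h1
  have hd := K.dif _ hS
  refine ⟨⟨K.ax y h0 h1, ?_⟩, hd⟩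
  have hc := K.cj _ hS
  have h2 : conj (I * (y : ℂ)) = -(I * y) := by simp
  rw [h2] at hc
  rw [hc] at hd
  have := congrArg Complex.im hd
  have h3 : (v (I * y)).im = κ * y / 2 := by
    simp at this
    linarith
  rw [h3, abs_div, abs_mul, abs_of_pos K.hκ, abs_of_pos (by norm_num : (0 : ℝ) < 2)]
  have := mul_lt_mul_of_pos_left h1 K.hκ
  linarith

/-- the law on the imaginary axis -/
theorem law_ax (H : Inv v κ L σ) (K : KD v κ L lam) (G : Germ v κ w r f) {F : ℂ → ℂ}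
    (E : Ext v σ f κ L w r F) {y : ℝ} (h0 : 0 ≤ y) (h1 : y < L) :
    F (v (I * y)) = -(exp (w * (I * y)) * F (v (-(I * y)))) := by
  set S : Set ℂ := (fun y : ℝ => I * (y : ℂ)) '' Ico 0 L with hS
  have hSc : IsPreconnected S := by
    refine isPreconnected_Ico.image _ ?_
    fun_prop
  have hSS : ∀ s ∈ S, s ∈ SS L ∧ -s ∈ SS L := by
    rintro _ ⟨y, hy, rfl⟩
    constructor
    · show |(I * (y : ℂ)).im| < L
      simpa [abs_of_nonneg hy.1] using hy.2
    · show |(-(I * (y : ℂ))).im| < L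
      simpa [abs_of_nonneg hy.1] using hy.2
  have hFan : ∀ V, V ∈ WW κ L ∨ V ∈ ball (0 : ℂ) r → AnalyticAt ℂ F V := by
    intro V hV
    have hop : IsOpen (WW κ L ∪ ball (0 : ℂ) r) := (isOpen_WW κ L).union isOpen_ball
    have hd : DifferentiableOn ℂ F (WW κ L ∪ ball (0 : ℂ) r) := by
      rintro U (hU | hU)
      · exact (E.dW U hU).differentiableWithinAt
      · exact (E.dB U hU).differentiableWithinAt
    exact hd.analyticAt (hop.mem_nhds hV)
  have hvan : ∀ s ∈ SS L, AnalyticAt ℂ v s := fun s hs =>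
    K.an.analyticAt ((isOpen_SS L).mem_nhds hs)
  have hval : ∀ s ∈ S, (v s ∈ WW κ L ∨ v s ∈ ball (0 : ℂ) r) ∧
      (v (-s) ∈ WW κ L ∨ v (-s) ∈ ball (0 : ℂ) r) := by
    rintro _ ⟨y, hy, rfl⟩
    rcases eq_or_lt_of_le hy.1 with h | h
    · subst h
      have : v (I * ((0 : ℝ) : ℂ)) ∈ ball (0 : ℂ) r := by
        simp [K.v0, G.hr]
      refine ⟨Or.inr this, Or.inr ?_⟩
      simpa using this
    · have h2 : |y| < L := by rw [abs_of_pos h]; exact hy.2
      refine ⟨Or.inl (K.mem_ax h.ne' h2).1, Or.inl ?_⟩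
      have := (K.mem_ax (y := -y) (neg_ne_zero.2 h.ne') (by rwa [abs_neg])).1
      have h3 : (I * ((-y : ℝ) : ℂ)) = -(I * y) := by push_cast; ring
      rwa [h3] at this
  have hP : AnalyticOnNhd ℂ (fun s => F (v s)) S := fun s hs =>
    AnalyticAt.comp (g := F) (hFan _ (hval s hs).1) (hvan s (hSS s hs).1)
  have hQ : AnalyticOnNhd ℂ (fun s => -(exp (w * s) * F (v (-s)))) S := by
    intro s hs
    have h2 : AnalyticAt ℂ (fun s => v (-s)) s :=
      AnalyticAt.comp (g := v) (hvan _ (hSS s hs).2) analyticAt_id.neg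
    have h3 : AnalyticAt ℂ (fun s => F (v (-s))) s :=
      AnalyticAt.comp (g := F) (f := fun s => v (-s)) (hFan _ (hval s hs).2) h2
    have h4 : AnalyticAt ℂ (fun s : ℂ => exp (w * s)) s := by fun_prop
    exact (h4.mul h3).neg
  have h00 : (0 : ℂ) ∈ S := ⟨0, ⟨le_rfl, K.hL⟩, by simp⟩
  have hev : (fun s => F (v s)) =ᶠ[𝓝 0] fun s => -(exp (w * s) * F (v (-s))) := by
    have hv0 : Tendsto v (𝓝 0) (𝓝 0) := by
      have := (hvan 0 (hSS 0 h00).1).continuousAt.tendsto
      rwa [K.v0] at this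
    have hv0' : Tendsto (fun s => v (-s)) (𝓝 0) (𝓝 0) := by
      have : Tendsto (fun s : ℂ => -s) (𝓝 0) (𝓝 0) := by
        simpa using (continuous_neg (G := ℂ)).tendsto 0
      exact hv0.comp this
    have hb := isOpen_ball.mem_nhds (mem_ball_self G.hr : (0 : ℂ) ∈ ball (0 : ℂ) r)
    have hs : ∀ᶠ s in 𝓝 (0 : ℂ), κ / 2 * ‖s‖ < r := by
      have : Tendsto (fun s : ℂ => κ / 2 * ‖s‖) (𝓝 0) (𝓝 0) := by
        have hc : Continuous fun s : ℂ => κ / 2 * ‖s‖ := by fun_prop
        have := hc.tendsto 0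
        rwa [norm_zero, mul_zero] at this
      exact this.eventually_lt_const G.hr
    filter_upwards [hv0.eventually hb, hv0'.eventually hb, hs] with s h1 h2 h3
    rw [E.small _ h1, E.small _ h2]
    exact G.ch s h3
  have := hP.eqOn_of_preconnected_of_eventuallyEq hQ hSc h00 hev
  exact this ⟨y, ⟨h0, h1⟩, rfl⟩

theorem KD.kill (K : KD v κ L lam) (hf : AnalyticAt ℂ f 0)
    (hne : ¬ ∀ᶠ A in 𝓝 (0 : ℂ), f A = 0) (hodd : ∀ᶠ A in 𝓝 (0 : ℂ), f (-A) = -f A)
    (hch : ∀ᶠ s in 𝓝 (0 : ℂ), f (v s) = -(exp (w * s) * f (v (-s)))) :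
    exp (w * (I * L)) = -exp (-(w * (I * L))) := by
  have hκ := K.hκ
  have hL := K.hL
  obtain ⟨r, G⟩ := exists_germ hκ hf hne hodd hch
  obtain ⟨σ, H⟩ := K.exists_inv
  obtain ⟨F, E⟩ := exists_ext H K G
  have hlamW : (-(lam : ℂ)) ∈ WW κ L := by
    refine ⟨by simpa using K.hlam, ?_⟩
    simp only [Complex.neg_im, Complex.ofReal_im, neg_zero, abs_zero]
    positivity
  set Φ : ℂ → ℂ := fun V => exp (-(w * V / κ)) * F V with hΦ
  have hΦc : ContinuousAt Φ (-(lam : ℂ)) := by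
    refine ContinuousAt.mul ?_ (E.dW _ hlamW).continuousAt
    fun_prop
  have hΦ0 : Φ (-(lam : ℂ)) ≠ 0 := mul_ne_zero (Complex.exp_ne_zero _) (E.ne _ hlamW)
  have hκc : (κ : ℂ) ≠ 0 := by exact_mod_cast hκ.ne'
  -- the map at the two end values
  have hT : ∀ V ∈ WW κ L, F V = exp (-(w * V / κ)) * Φ (TT v σ V) := by
    intro V hV
    have h1 := E.law V hV
    have h2 : σ V = -(V + TT v σ V) / κ := by
      rw [H.T_eq K hV]
      field_simp
      ring
    rw [h1]
    simp only [hΦ]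
    rw [← mul_assoc, ← Complex.exp_add]
    congr 2
    nth_rw 1 [h2]
    field_simp
    ring
  have hrel : ∀ y : ℝ, 0 < y → y < L →
      exp (-(w * (I * y))) * Φ (TT v σ (v (I * y))) =
        -(exp (w * (I * y)) * Φ (TT v σ (v (-(I * y))))) := by
    intro y h0 h1
    have hy : |y| < L := by rwa [abs_of_pos h0]
    have hp := K.mem_ax h0.ne' hy
    have hm := (K.mem_ax (y := -y) (neg_ne_zero.2 h0.ne') (by rwa [abs_neg])).1
    have h3 : (I * ((-y : ℝ) : ℂ)) = -(I * y) := by push_cast; ring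
    rw [h3] at hm
    have hl := law_ax H K G E h0.le h1
    rw [hT _ hp.1, hT _ hm] at hl
    have h4 : v (I * y) = v (-(I * y)) + κ * (I * y) := by linear_combination hp.2
    have h5 : exp (-(w * v (I * y) / κ)) =
        exp (-(w * v (-(I * y)) / κ)) * exp (-(w * (I * y))) := by
      rw [← Complex.exp_add]
      congr 1
      nth_rw 1 [h4]
      field_simp
      ring
    rw [h5] at hl
    have h6 : exp (-(w * v (-(I * y)) / κ)) ≠ 0 := Complex.exp_ne_zero _
    apply mul_left_cancel₀ h6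
    linear_combination hl
  -- convergence of the images
  have hlim : ∀ c : ℝ, (c = 1 ∨ c = -1) →
      Tendsto (fun y : ℝ => TT v σ (v (I * ((c * y : ℝ) : ℂ)))) (𝓝[<] L) (𝓝 (-(lam : ℂ))) := by
    intro c hc
    rw [Metric.tendsto_nhds]
    intro ε hε
    obtain ⟨M, hM⟩ := K.lim ε hε
    obtain ⟨C, hC⟩ := K.far M
    have h1 : ∀ᶠ y : ℝ in 𝓝[<] L, (v (I * (y : ℂ))).re < -max C 0 :=
      K.bot.eventually (Filter.eventually_lt_atBot _)
    have h2 : ∀ᶠ y : ℝ in 𝓝[<] L, 0 < y ∧ y < L := by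
      have : Ioo 0 L ∈ 𝓝[<] L := Ioo_mem_nhdsLT hL
      filter_upwards [this] with y hy using ⟨hy.1, hy.2⟩
    filter_upwards [h1, h2] with y h3 h4
    have hy : |c * y| < L := by
      rcases hc with rfl | rfl
      · rw [one_mul, abs_of_pos h4.1]; exact h4.2
      · rw [neg_one_mul, abs_neg, abs_of_pos h4.1]; exact h4.2
    have hy0 : c * y ≠ 0 := by
      rcases hc with rfl | rfl
      · simpa using h4.1.ne'
      · simpa using h4.1.ne'
    have hre : (v (I * ((c * y : ℝ) : ℂ))).re = (v (I * y)).re := by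
      rcases hc with rfl | rfl
      · simp
      · have hS : (I * y : ℂ) ∈ SS L := by
          show |(I * (y : ℂ)).im| < L
          simpa [abs_of_pos h4.1] using h4.2
        have := K.cj _ hS
        have h5 : conj (I * (y : ℂ)) = I * (((-1 : ℝ) * y : ℝ) : ℂ) := by
          simp
        rw [← h5, this, Complex.conj_re]
    have hW := (K.mem_ax hy0 hy).1
    set V := v (I * ((c * y : ℝ) : ℂ)) with hV
    have hs := H.mem V hW
    have hvs := H.eq V hW
    have h6 : |(v (σ V)).im| < κ * L / 2 := by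
      rw [hvs, Complex.neg_im, abs_neg]; exact hW.2
    have h7 : max C 0 < (v (σ V)).re := by
      rw [hvs, Complex.neg_re, hre]; linarith
    have h8 := hC _ hs h6 ((le_max_left _ _).trans_lt h7)
    have h9 := hM _ hs h6 ((le_max_right _ _).trans_lt h7) h8
    rw [dist_eq_norm, sub_neg_eq_add]
    exact h9
  have l1 := hlim 1 (Or.inl rfl)
  have l2 := hlim (-1) (Or.inr rfl)
  simp only [one_mul] at l1
  have l3 : Tendsto (fun y : ℝ => TT v σ (v (-(I * (y : ℂ))))) (𝓝[<] L) (𝓝 (-(lam : ℂ))) := by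
    refine l2.congr fun y => ?_
    congr 2
    push_cast
    ring
  have hexp : ∀ c : ℂ, Tendsto (fun y : ℝ => exp (c * (w * (I * y)))) (𝓝[<] L)
      (𝓝 (exp (c * (w * (I * L))))) := by
    intro c
    have : Continuous fun y : ℝ => exp (c * (w * (I * (y : ℂ)))) := by fun_prop
    exact (this.tendsto L).mono_left nhdsWithin_le_nhds
  have hA : Tendsto (fun y : ℝ => exp (-(w * (I * (y : ℂ)))) * Φ (TT v σ (v (I * y)))) (𝓝[<] L)
      (𝓝 (exp (-(w * (I * L))) * Φ (-(lam : ℂ)))) := by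
    have := hexp (-1)
    simp only [neg_one_mul] at this
    exact this.mul (hΦc.tendsto.comp l1)
  have hB : Tendsto (fun y : ℝ => -(exp (w * (I * (y : ℂ))) * Φ (TT v σ (v (-(I * y))))))
      (𝓝[<] L) (𝓝 (-(exp (w * (I * L)) * Φ (-(lam : ℂ))))) := by
    have := hexp 1
    simp only [one_mul] at this
    exact (this.mul (hΦc.tendsto.comp l3)).neg
  have hEq : (fun y : ℝ => exp (-(w * (I * (y : ℂ)))) * Φ (TT v σ (v (I * y)))) =ᶠ[𝓝[<] L]
      fun y : ℝ => -(exp (w * (I * (y : ℂ))) * Φ (TT v σ (v (-(I * y))))) := by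
    have : Ioo 0 L ∈ 𝓝[<] L := Ioo_mem_nhdsLT hL
    filter_upwards [this] with y hy
    exact hrel y hy.1 hy.2
  have hfin := tendsto_nhds_unique (hA.congr' hEq) hB
  have : (exp (w * (I * L)) + exp (-(w * (I * L)))) * Φ (-(lam : ℂ)) = 0 := by
    linear_combination hfin
  rcases mul_eq_zero.1 this with h | h
  · linear_combination h
  · exact absurd h hΦ0

end Vale.Agent.P097.H244
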