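import Vale.Agent.P097.H244.Gg
import Vale.Agent.P097.H244.Kill3

/-! # P097 / H244: the data for the law at a multiple pole. -/

set_option linter.all false

open Complex Metric Filter Topology Set
open scoped ComplexConjugate

namespace Vale.Agent.P097.H244

theorem far_aux {s : ℂ} (hs : 0 < s.re) (h1 : Real.pi < s.im) (h2 : s.im < 2 * Real.pi)
    (hq : |(gg s).im| < Real.pi) (hp : 0 < (gg s).re) : (gg s).re < s.re := by
  have h0 : s ≠ 0 := by
    rintro rfl; exact absurd hs (by simp)
  have hpi := Real.pi_pos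
  have hs2 : |s.im| < 2 * Real.pi := by
    rw [abs_lt]; constructor <;> linarith
  have he : (1 : ℂ) - Complex.exp (-s) ≠ 0 := by
    rw [sub_ne_zero]
    exact (exp_ne_one (neg_ne_zero.2 h0) (neg_mem hs2)).symm
  have h3 : (1 + gg s) * (1 - Complex.exp (-s)) = s := by
    rw [gg_of_ne h0]; field_simp; ring
  have hr : ((1 : ℂ) - Complex.exp (-s)).re = 1 - Real.exp (-s.re) * Real.cos s.im := by
    rw [Complex.sub_re, Complex.exp_re]
    simp
  have hi : ((1 : ℂ) - Complex.exp (-s)).im = Real.exp (-s.re) * Real.sin s.im := by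
    rw [Complex.sub_im, Complex.exp_im]
    simp
  have h4 := congrArg Complex.re h3
  have h5 := congrArg Complex.im h3
  rw [Complex.mul_re, hr, hi] at h4
  rw [Complex.mul_im, hr, hi] at h5
  simp only [Complex.add_re, Complex.one_re, Complex.add_im, Complex.one_im, zero_add] at h4 h5
  have hb : Real.sin s.im ≤ 0 := by
    have := Real.sin_nonneg_of_nonneg_of_le_pi (x := s.im - Real.pi) (by linarith) (by linarith)
    rw [Real.sin_sub_pi] at this
    linarith
  have he0 : 0 < Real.exp (-s.re) := Real.exp_pos _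
  have he1 : Real.exp (-s.re) < 1 := Real.exp_lt_one_iff.2 (by linarith)
  have hc1 : Real.cos s.im ≤ 1 := Real.cos_le_one _
  set e := Real.exp (-s.re)
  set p := (gg s).re
  set q := (gg s).im
  have ha : 0 < 1 - e * Real.cos s.im := by nlinarith
  have hb' : e * Real.sin s.im ≤ 0 := by nlinarith
  have h6 : Real.pi < q * (1 - e * Real.cos s.im) := by nlinarith
  have hq0 : 0 < q := by
    by_contra h
    push Not at h
    nlinarith
  have hq1 : q < Real.pi := (abs_lt.1 hq).2
  have hc : 1 < 1 - e * Real.cos s.im := by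
    by_contra h
    push Not at h
    nlinarith
  nlinarith [mul_nonneg hq0.le (neg_nonneg.2 hb')]

theorem lim_aux {ε b : ℝ} (hε : 0 < ε) (hb : 0 < b) (A : ℝ) :
    ∃ M : ℝ, 0 < M ∧ ∀ s : ℂ, M < s.re → |s.im| < A → ‖s‖ < ε * (Real.exp (b * s.re) - 1) := by
  refine ⟨max (max 1 A) (4 / (ε * b ^ 2)), lt_max_of_lt_left (lt_max_of_lt_left one_pos), ?_⟩
  intro s h1 h2
  have h3 : 1 < s.re := (le_max_left _ _).trans_lt ((le_max_left _ _).trans_lt h1)
  have h4 : A < s.re := (le_max_right _ _).trans_lt ((le_max_left _ _).trans_lt h1)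
  have h5 : 4 / (ε * b ^ 2) < s.re := (le_max_right _ _).trans_lt h1
  rw [div_lt_iff₀ (by positivity)] at h5
  have h6 : ‖s‖ ≤ |s.re| + |s.im| := Complex.norm_le_abs_re_add_abs_im s
  rw [abs_of_pos (by linarith)] at h6
  have h7 := Real.quadratic_le_exp_of_nonneg (x := b * s.re) (by positivity)
  have h8 : (b * s.re) ^ 2 / 2 ≤ Real.exp (b * s.re) - 1 := by
    have : 0 ≤ b * s.re := by positivity
    linarith
  have h9 : ε * ((b * s.re) ^ 2 / 2) ≤ ε * (Real.exp (b * s.re) - 1) :=
    mul_le_mul_of_nonneg_left h8 hε.le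
  nlinarith

theorem KDg : KD gg 1 (2 * Real.pi) 1 where
  hκ := one_pos
  hL := by positivity
  hlam := one_pos
  an := gg_diff
  v0 := gg_zero
  dif := fun s hs => by rw [gg_sub hs]; simp
  cj := fun s _ => gg_conj s
  der := fun s hs => gg_der_re hs
  neg := fun s hs => gg_neg_re hs
  ctr := fun s hs => gg_ctr hs
  ax := fun y h0 h1 => gg_ax h0 h1
  far := by
    intro M
    have hpi := Real.pi_pos
    have hKc : IsCompact ((Icc 0 M) ×ℂ (Icc (-Real.pi) Real.pi)) :=
      isCompact_Icc.reProdIm isCompact_Icc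
    have hcont : ContinuousOn gg ((Icc 0 M) ×ℂ (Icc (-Real.pi) Real.pi)) := by
      refine gg_diff.continuousOn.mono ?_
      intro z hz
      rw [Complex.mem_reProdIm] at hz
      show |z.im| < 2 * Real.pi
      rw [abs_lt]
      exact ⟨by linarith [hz.2.1], by linarith [hz.2.2]⟩
    obtain ⟨B, hB⟩ := hKc.exists_bound_of_continuousOn hcont
    refine ⟨max B (max M 0), ?_⟩
    intro s hs h1 h2
    have hB1 : B < (gg s).re := (le_max_left _ _).trans_lt h2
    have hM1 : M < (gg s).re := (le_max_left _ _).trans_lt ((le_max_right _ _).trans_lt h2)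
    have h01 : 0 < (gg s).re := (le_max_right _ _).trans_lt ((le_max_right _ _).trans_lt h2)
    have h3 : |(gg s).im| < Real.pi := by linarith
    have hs2 := abs_lt.1 hs.2
    by_contra h
    push Not at h
    rcases le_or_gt |s.im| Real.pi with h4 | h4
    · have : s ∈ (Icc 0 M) ×ℂ (Icc (-Real.pi) Real.pi) := by
        rw [Complex.mem_reProdIm]
        exact ⟨⟨hs.1.le, h⟩, abs_le.1 h4⟩
      have := hB s this
      have := (Complex.re_le_norm (gg s)).trans this
      linarith
    · rcases lt_abs.1 h4 with h5 | h5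
      · have := far_aux hs.1 h5 hs2.2 h3 h01
        linarith
      · have := far_aux (s := conj s) (by simpa using hs.1) (by simpa using h5)
          (by rw [Complex.conj_im]; linarith [hs2.1]) (by rw [gg_conj]; simpa using h3)
          (by rw [gg_conj]; simpa using h01)
        rw [gg_conj, Complex.conj_re, Complex.conj_re] at this
        linarith
  lim := by
    intro ε hε
    obtain ⟨M, hM0, hM⟩ := lim_aux hε one_pos (2 * Real.pi)
    refine ⟨M, fun s hs _ _ h => ?_⟩
    have h1 := hM s h hs.2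
    have h0 : s ≠ 0 := by
      rintro rfl; exact absurd hs.1 (by simp)
    have h2 : Complex.exp s - 1 ≠ 0 := sub_ne_zero.2 (exp_ne_one h0 hs.2)
    have h3 : gg (-s) + (1 : ℝ) = s / (Complex.exp s - 1) := by
      rw [gg, neg_neg, Ex_of_ne h0, one_div_div]
      push_cast
      ring
    have h4 : Real.exp s.re - 1 ≤ ‖Complex.exp s - 1‖ := by
      have := norm_sub_norm_le (Complex.exp s) 1
      rwa [Complex.norm_exp, norm_one] at this
    have h5 : 0 < ‖Complex.exp s - 1‖ := norm_pos_iff.2 h2
    rw [h3, norm_div, div_lt_iff₀ h5]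
    rw [one_mul] at h1
    exact h1.trans_le (mul_le_mul_of_nonneg_left h4 hε.le)
  bot := by
    have hpi := Real.pi_pos
    have h1 : (fun y : ℝ => (gg (I * y)).re) =ᶠ[𝓝[<] (2 * Real.pi)]
        fun y => (y / 2 * Real.cos (y / 2)) * (Real.sin (y / 2))⁻¹ + (-1) := by
      have : Ioo 0 (2 * Real.pi) ∈ 𝓝[<] (2 * Real.pi) := Ioo_mem_nhdsLT (by positivity)
      filter_upwards [this] with y hy
      have hy0 : y ≠ 0 := hy.1.ne'
      have hy1 : |y| < 2 * Real.pi := by rw [abs_of_pos hy.1]; exact hy.2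
      have hc := one_sub_cos_pos hy0 hy1
      rw [gg_ax_eq hy0 hy1]
      have hs : 0 < Real.sin (y / 2) :=
        Real.sin_pos_of_pos_of_lt_pi (by linarith [hy.1]) (by linarith [hy.2])
      have e1 : Real.sin y = 2 * Real.sin (y / 2) * Real.cos (y / 2) := by
        rw [← Real.sin_two_mul]; congr 1; ring
      have e2 : 1 - Real.cos y = 2 * Real.sin (y / 2) ^ 2 := by
        have : Real.cos y = 2 * Real.cos (y / 2) ^ 2 - 1 := by
          rw [← Real.cos_two_mul]; congr 1; ring
        have h7 := Real.sin_sq_add_cos_sq (y / 2)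
        linear_combination -this - 2 * h7
      rw [e1, e2]
      field_simp
      ring
    refine Tendsto.congr' h1.symm ?_
    refine tendsto_atBot_add_const_right _ _ ?_
    refine Tendsto.neg_mul_atTop (C := 2 * Real.pi / 2 * Real.cos (2 * Real.pi / 2)) ?_ ?_ ?_
    · have : 2 * Real.pi / 2 = Real.pi := by ring
      rw [this, Real.cos_pi]; linarith
    · have : Continuous fun y : ℝ => y / 2 * Real.cos (y / 2) := by fun_prop
      exact (this.tendsto _).mono_left nhdsWithin_le_nhds
    · refine tendsto_inv_nhdsGT_zero.comp ?_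
      rw [tendsto_nhdsWithin_iff]
      constructor
      · have : Continuous fun y : ℝ => Real.sin (y / 2) := by fun_prop
        have h2 := (this.tendsto (2 * Real.pi)).mono_left (nhdsWithin_le_nhds (s := Iio (2 * Real.pi)))
        have h3 : Real.sin (2 * Real.pi / 2) = 0 := by
          have : 2 * Real.pi / 2 = Real.pi := by ring
          rw [this, Real.sin_pi]
        rwa [h3] at h2
      · have : Ioo 0 (2 * Real.pi) ∈ 𝓝[<] (2 * Real.pi) := Ioo_mem_nhdsLT (by positivity)
        filter_upwards [this] with y hy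
        exact Real.sin_pos_of_pos_of_lt_pi (by linarith [hy.1]) (by linarith [hy.2])

/-- the kill of the law at a multiple pole -/
theorem k4 (f : ℂ → ℂ) (an : AnalyticAt ℂ f 0) (ne : ¬ ∀ᶠ A in 𝓝 (0 : ℂ), f A = 0)
    (refl : ∀ᶠ A in 𝓝 (0 : ℂ), f (-A) = -f A)
    (chord : ∀ᶠ x in 𝓝 (0 : ℂ), f (1 / Ex (-x) - 1) = -(Complex.exp x * f (1 / Ex x - 1))) :
    False := by
  have h := KDg.kill (f := f) (w := 1) an ne refl (by
    filter_upwards [chord] with x hx
    rw [gg, gg, neg_neg]
    simpa using hx)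
  have e1 : ((1 : ℝ) : ℂ) * (I * ((2 * Real.pi : ℝ) : ℂ)) = 2 * Real.pi * I := by
    push_cast; ring
  rw [e1, Complex.exp_neg, Complex.exp_two_pi_mul_I] at h
  norm_num at h

end Vale.Agent.P097.H244
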