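import Vale.Agent.P097.H402.Rat.Defs
import Vale.Agent.P097.H244.Inst4

/-! # P097 / RAT-K4: no pencil law at a multiple pole. -/

set_option linter.all false

open Complex Metric Filter Topology Set
open scoped ComplexConjugate

namespace Vale.Agent.P097.H244

open Vale.Agent.P097.H402.Rat

theorem Ex_same (z : ℂ) : Vale.Agent.P097.H402.Rat.Ex z = Vale.Agent.P097.H244.Ex z := rfl

theorem pk4 : PK4 := by
  intro f h
  refine k4 f h.an h.ne h.refl ?_
  filter_upwards [h.chord] with x hx
  simpa only [Ex_same] using hx

end Vale.Agent.P097.H244
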