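import Vale.Agent.P097.H244.Gg

/-! # P097 / H244: the logarithm `ell` of `(e ^ z - 1) / z` on the strip `|Im z| < 2 π`. -/

set_option linter.all false

open Complex Metric Filter Topology Set
open scoped ComplexConjugate

namespace Vale.Agent.P097.H244

/-- `e ^ (-z / 2) (e ^ z - 1) / z` -/
noncomputable def sc (z : ℂ) : ℂ := Complex.exp (-z / 2) * Ex z

theorem mul_sc (z : ℂ) : z * sc z = 2 * Complex.sinh (z / 2) := by
  have h := mul_Ex z
  have h2 : Complex.exp (-z / 2) = Complex.exp (-(z / 2)) := by congr 1; ring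
  have h1 : Complex.exp (-(z / 2)) * Complex.exp z = Complex.exp (z / 2) := by
    rw [← Complex.exp_add]; congr 1; ring
  rw [sc, Complex.sinh, h2]
  linear_combination Complex.exp (-(z / 2)) * h + h1

theorem sc_neg (z : ℂ) : sc (-z) = sc z := by
  rw [sc, sc, Ex_neg]
  have : Complex.exp (-(-z) / 2) * Complex.exp (-z) = Complex.exp (-z / 2) := by
    rw [← Complex.exp_add]; congr 1; ring
  rw [← mul_assoc, this]

theorem conj_two' : conj (2 : ℂ) = 2 := by
  have : (2 : ℂ) = ((2 : ℝ) : ℂ) := by norm_num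
  rw [this, Complex.conj_ofReal]

theorem sc_conj (z : ℂ) : sc (conj z) = conj (sc z) := by
  rw [sc, sc, Ex_conj, map_mul, ← Complex.exp_conj, map_div₀, map_neg, conj_two']

theorem q_sin_pos {q : ℝ} (h0 : q ≠ 0) (h : |q| < Real.pi) : 0 < q * Real.sin q := by
  rcases lt_or_gt_of_ne h0 with h1 | h1
  · rw [abs_of_neg h1] at h
    have := Real.sin_pos_of_pos_of_lt_pi (x := -q) (by linarith) h
    rw [Real.sin_neg] at this
    nlinarith
  · rw [abs_of_pos h1] at h
    exact mul_pos h1 (Real.sin_pos_of_pos_of_lt_pi h1 h)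

theorem p_sinh_pos {p : ℝ} (h0 : p ≠ 0) : 0 < p * Real.sinh p := by
  rcases lt_or_gt_of_ne h0 with h1 | h1
  · exact mul_pos_of_neg_of_neg h1 (Real.sinh_neg_iff.2 h1)
  · exact mul_pos h1 (Real.sinh_pos_iff.2 h1)

theorem slit_real {p q : ℝ} (h : p ≠ 0 ∨ q ≠ 0) (hq : |q| < Real.pi)
    (hB : p * Real.cosh p * Real.sin q - q * Real.sinh p * Real.cos q = 0) :
    0 < p * Real.sinh p * Real.cos q + q * Real.cosh p * Real.sin q := by
  rcases eq_or_ne q 0 with h0 | h0
  · subst h0
    simpa using p_sinh_pos (h.resolve_right (by simp))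
  have hqs := q_sin_pos h0 hq
  rcases eq_or_ne p 0 with h1 | h1
  · subst h1
    simpa using hqs
  have hsh : Real.sinh p ≠ 0 := by
    intro h2; have := p_sinh_pos h1; rw [h2] at this; simp at this
  set A := p * Real.sinh p * Real.cos q + q * Real.cosh p * Real.sin q with hA
  have h2 : Real.sinh p * (A * q - (p ^ 2 + q ^ 2) * Real.cosh p * Real.sin q) = 0 := by
    rw [hA]
    linear_combination (-p * Real.sinh p) * hB
  have h3 : A * q = (p ^ 2 + q ^ 2) * Real.cosh p * Real.sin q := by
    have := (mul_eq_zero.1 h2).resolve_left hsh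
    linarith
  have h4 : A * q ^ 2 = (p ^ 2 + q ^ 2) * Real.cosh p * (q * Real.sin q) := by
    linear_combination q * h3
  have h5 : 0 < A * q ^ 2 := by
    rw [h4]
    have := Real.cosh_pos p
    positivity
  exact pos_of_mul_pos_left h5 (sq_nonneg q)

theorem sc_slit {z : ℂ} (hz : |z.im| < 2 * Real.pi) : sc z ∈ slitPlane := by
  rcases eq_or_ne z 0 with rfl | h0
  · simp [sc, Ex_zero]
  have h := mul_sc z
  have hn : 0 < Complex.normSq z := Complex.normSq_pos.2 h0
  have e1 : (z / 2).re = z.re / 2 := by simp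
  have e2 : (z / 2).im = z.im / 2 := by simp
  have h1 : (Complex.normSq z : ℂ) * sc z = 2 * Complex.sinh (z / 2) * conj z := by
    rw [← h, ← Complex.mul_conj]; ring
  have hr := congrArg Complex.re h1
  have hi := congrArg Complex.im h1
  have h2r : (2 * Complex.sinh (z / 2)).re = 2 * (Real.sinh (z.re / 2) * Real.cos (z.im / 2)) := by
    have := re_sinh (z / 2)
    rw [e1, e2] at this
    rw [← this]; simp
  have h2i : (2 * Complex.sinh (z / 2)).im = 2 * (Real.cosh (z.re / 2) * Real.sin (z.im / 2)) := by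
    have := im_sinh (z / 2)
    rw [e1, e2] at this
    rw [← this]; simp
  rw [Complex.re_ofReal_mul, Complex.mul_re, h2r, h2i, Complex.conj_re, Complex.conj_im] at hr
  rw [Complex.im_ofReal_mul, Complex.mul_im, h2r, h2i, Complex.conj_re, Complex.conj_im] at hi
  set p := z.re / 2 with hp
  set q := z.im / 2 with hq
  have hzr : z.re = 2 * p := by rw [hp]; ring
  have hzi : z.im = 2 * q := by rw [hq]; ring
  have hqpi : |q| < Real.pi := by
    rw [hq, abs_div, abs_of_pos (zero_lt_two' ℝ)]; linarith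
  have hpq : p ≠ 0 ∨ q ≠ 0 := by
    by_contra hc
    push Not at hc
    apply h0
    apply Complex.ext
    · rw [hzr, hc.1]; simp
    · rw [hzi, hc.2]; simp
  rw [hzr, hzi] at hr hi
  rw [Complex.mem_slitPlane_iff]
  by_contra hc
  push Not at hc
  have hB : p * Real.cosh p * Real.sin q - q * Real.sinh p * Real.cos q = 0 := by
    rw [hc.2, mul_zero] at hi
    linarith
  have hA := slit_real hpq hqpi hB
  have h3 : Complex.normSq z * (sc z).re ≤ 0 := mul_nonpos_of_nonneg_of_nonpos hn.le hc.1
  rw [hr] at h3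
  linarith

/-- the logarithm of `Ex` -/
noncomputable def ell (z : ℂ) : ℂ := z / 2 + Complex.log (sc z)

theorem ell_zero : ell 0 = 0 := by simp [ell, sc, Ex_zero]

theorem exp_ell {z : ℂ} (hz : |z.im| < 2 * Real.pi) : Complex.exp (ell z) = Ex z := by
  rw [ell, Complex.exp_add, Complex.exp_log (slitPlane_ne_zero (sc_slit hz)), sc, ← mul_assoc,
    ← Complex.exp_add]
  have : z / 2 + -z / 2 = 0 := by ring
  rw [this, Complex.exp_zero, one_mul]

theorem ell_sub (z : ℂ) : ell z - ell (-z) = z := by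
  rw [ell, ell, sc_neg]; ring

theorem ell_conj {z : ℂ} (hz : |z.im| < 2 * Real.pi) : ell (conj z) = conj (ell z) := by
  rw [ell, ell, sc_conj, Complex.log_conj _ (Complex.slitPlane_arg_ne_pi (sc_slit hz)), map_add,
    map_div₀, conj_two']

theorem sc_diff : Differentiable ℂ sc := by
  have : Differentiable ℂ fun z : ℂ => Complex.exp (-z / 2) := by fun_prop
  exact this.mul Ex_diff

theorem ell_dAt {z : ℂ} (hz : z ∈ SS (2 * Real.pi)) : DifferentiableAt ℂ ell z := by
  have h1 : DifferentiableAt ℂ (fun z => Complex.log (sc z)) z := (sc_diff z).clog (sc_slit hz)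
  have h2 : DifferentiableAt ℂ (fun z : ℂ => z / 2) z := by fun_prop
  exact h2.add h1

theorem Ex_deriv {z : ℂ} (h : z ≠ 0) :
    HasDerivAt Ex ((Complex.exp z * z - (Complex.exp z - 1) * 1) / z ^ 2) z := by
  have h1 : HasDerivAt (fun z : ℂ => (Complex.exp z - 1) / z)
      ((Complex.exp z * z - (Complex.exp z - 1) * 1) / z ^ 2) z :=
    ((Complex.hasDerivAt_exp z).sub_const 1).div (hasDerivAt_id z) h
  refine h1.congr_of_eventuallyEq ?_
  filter_upwards [isOpen_ne.mem_nhds h] with w hw
  exact Ex_of_ne hw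

theorem ell_deriv {z : ℂ} (hz : z ∈ SS (2 * Real.pi)) (h : z ≠ 0) :
    HasDerivAt ell (gg z / z) z := by
  have h1 := (ell_dAt hz).hasDerivAt
  have h2 : HasDerivAt (fun z => Complex.exp (ell z)) (Complex.exp (ell z) * deriv ell z) z :=
    h1.cexp
  have h3 : (fun z => Complex.exp (ell z)) =ᶠ[𝓝 z] Ex := by
    filter_upwards [(isOpen_SS _).mem_nhds hz] with w hw
    exact exp_ell hw
  have h4 := h2.unique ((Ex_deriv h).congr_of_eventuallyEq h3)
  rw [exp_ell hz, Ex_of_ne h] at h4
  have he : Complex.exp z - 1 ≠ 0 := sub_ne_zero.2 (exp_ne_one h hz)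
  have he' : (1 : ℂ) - Complex.exp (-z) ≠ 0 := by
    rw [sub_ne_zero]
    exact (exp_ne_one (neg_ne_zero.2 h) (neg_mem hz)).symm
  have h5 : deriv ell z = gg z / z := by
    rw [gg_of_ne h]
    have h6 : z / (1 - Complex.exp (-z)) = z * Complex.exp z / (Complex.exp z - 1) := by
      rw [div_eq_div_iff he' he]
      have : Complex.exp z * Complex.exp (-z) = 1 := by rw [← Complex.exp_add]; simp
      linear_combination z * this
    rw [h6]
    field_simp at h4 ⊢
    linear_combination h4
  rw [← h5]; exact h1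

end Vale.Agent.P097.H244
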