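import Vale.Agent.P097.H244.Ell
import Vale.Agent.P097.H244.Inst4

/-! # P097 / H244: the data for the law at an isotropic end. -/

set_option linter.all false

open Complex Metric Filter Topology Set
open scoped ComplexConjugate

namespace Vale.Agent.P097.H244

noncomputable def vv (a b : ℝ) (s : ℂ) : ℂ := ell (a * s) - ell (b * s)

theorem mem_u {a u : ℝ} {s : ℂ} (ha : 0 < a) (hu : |u| ≤ a) (hs : |s.im| < 2 * Real.pi / a) :
    (u : ℂ) * s ∈ SS (2 * Real.pi) := by
  show |((u : ℂ) * s).im| < 2 * Real.pi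
  rw [Complex.im_ofReal_mul, abs_mul]
  rw [lt_div_iff₀ ha] at hs
  nlinarith [abs_nonneg s.im, abs_nonneg u]

section

variable {a b : ℝ}

/-- the parameter `b + t (a - b)` -/
theorem par (hb : 0 < b) (hab : b < a) {t : ℝ} (ht : t ∈ Icc (0 : ℝ) 1) :
    0 < b + t * (a - b) ∧ b ≤ b + t * (a - b) ∧ b + t * (a - b) ≤ a := by
  obtain ⟨h0, h1⟩ := ht
  have h2 : 0 ≤ t * (a - b) := mul_nonneg h0 (by linarith)
  refine ⟨by linarith, by linarith, ?_⟩
  nlinarith

theorem par_mem (hb : 0 < b) (hab : b < a) {t : ℝ} (ht : t ∈ Icc (0 : ℝ) 1) {s : ℂ}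
    (hs : |s.im| < 2 * Real.pi / a) :
    ((b + t * (a - b) : ℝ) : ℂ) * s ∈ SS (2 * Real.pi) := by
  obtain ⟨h0, h1, h2⟩ := par hb hab ht
  exact mem_u (by linarith) (by rwa [abs_of_pos h0]) hs

theorem par_PP (hb : 0 < b) (hab : b < a) {t : ℝ} (ht : t ∈ Icc (0 : ℝ) 1) {s : ℂ}
    (hs : s ∈ PP (2 * Real.pi / a)) :
    ((b + t * (a - b) : ℝ) : ℂ) * s ∈ PP (2 * Real.pi) := by
  refine ⟨?_, par_mem hb hab ht hs.2⟩
  rw [Complex.re_ofReal_mul]
  exact mul_pos (par hb hab ht).1 hs.1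

theorem re_mul_of {z w : ℂ} {r : ℝ} (h : z = (r : ℂ) * w) : z.re = r * w.re := by
  rw [h, Complex.re_ofReal_mul]

/-- increments of `ell` along a ray -/
theorem ell_ray (hb : 0 < b) (hab : b < a) {s c : ℂ} (h0 : s ≠ 0) (hs : |s.im| < 2 * Real.pi / a)
    {t : ℝ} (ht : t ∈ Icc (0 : ℝ) 1) :
    HasDerivAt (fun t : ℝ => (ell (b * s + t * ((a - b : ℝ) * s)) * c).re)
      ((a - b) / (b + t * (a - b)) * (gg (((b + t * (a - b) : ℝ) : ℂ) * s) * c).re) t := by
  have hp := par hb hab ht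
  have hm := par_mem hb hab ht hs
  have e : (b : ℂ) * s + t * ((a - b : ℝ) * s) = ((b + t * (a - b) : ℝ) : ℂ) * s := by
    push_cast; ring
  have hd : DifferentiableAt ℂ ell (b * s + t * ((a - b : ℝ) * s)) := by
    rw [e]; exact ell_dAt hm
  have h1 := hasDerivAt_re_line (c := c) hd
  refine h1.congr_deriv ?_
  have hu : ((b + t * (a - b) : ℝ) : ℂ) ≠ 0 := by exact_mod_cast hp.1.ne'
  rw [e, (ell_deriv hm (mul_ne_zero hu h0)).deriv]
  refine re_mul_of ?_
  rw [Complex.ofReal_div]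
  field_simp

theorem vv_neg_ne (s : ℂ) : (-s : ℂ) ≠ 0 ↔ s ≠ 0 := neg_ne_zero

theorem ray_cont (hb : 0 < b) (hab : b < a) {s c : ℂ} (h0 : s ≠ 0)
    (hs : |s.im| < 2 * Real.pi / a) :
    ContinuousOn (fun t : ℝ => (ell (b * s + t * ((a - b : ℝ) * s)) * c).re) (Icc 0 1) :=
  fun _ ht => (ell_ray hb hab h0 hs ht).continuousAt.continuousWithinAt

theorem ray_ends (s c : ℂ) :
    (fun t : ℝ => (ell (b * s + t * ((a - b : ℝ) * s)) * c).re) 1 -
      (fun t : ℝ => (ell (b * s + t * ((a - b : ℝ) * s)) * c).re) 0 = (vv a b s * c).re := by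
  simp only [Complex.ofReal_one, one_mul, Complex.ofReal_zero, zero_mul, add_zero]
  have : (b : ℂ) * s + (a - b : ℝ) * s = a * s := by push_cast; ring
  rw [this, ← Complex.sub_re, ← sub_mul, vv]

theorem vv_lt (hb : 0 < b) (hab : b < a) {s c : ℂ} (h0 : s ≠ 0)
    (hs : |s.im| < 2 * Real.pi / a)
    (h : ∀ u : ℝ, 0 < u → u ≤ a → 0 < (gg ((u : ℂ) * s) * c).re) : 0 < (vv a b s * c).re := by
  rw [← ray_ends]
  refine seg_gt (ray_cont hb hab h0 hs)
    (fun t ht => ell_ray hb hab h0 hs (Ioo_subset_Icc_self ht)) ?_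
  intro t ht
  have hp := par hb hab (Ioo_subset_Icc_self ht)
  have := h _ hp.1 hp.2.2
  have h2 : 0 < a - b := by linarith
  exact mul_pos (div_pos h2 hp.1) this

theorem vv_neg (hb : 0 < b) (hab : b < a) {s : ℂ} (hs : s ∈ PP (2 * Real.pi / a)) :
    (vv a b (-s)).re < 0 := by
  have h0 : s ≠ 0 := by
    rintro rfl; exact absurd hs.1 (by simp)
  have := vv_lt (c := -1) hb hab (neg_ne_zero.2 h0) (s := -s)
    (by rw [Complex.neg_im, abs_neg]; exact hs.2) (fun u hu hua => by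
      have h1 : (u : ℂ) * s ∈ PP (2 * Real.pi) := by
        refine ⟨by rw [Complex.re_ofReal_mul]; exact mul_pos hu hs.1, ?_⟩
        exact mem_u (hu.trans_le hua) (by rwa [abs_of_pos hu]) hs.2
      have h2 := gg_neg_re h1
      rw [mul_neg]
      simpa using h2)
  simpa using this

theorem vv_ax (hb : 0 < b) (hab : b < a) {y : ℝ} (h0 : y ≠ 0) (hy : |y| < 2 * Real.pi / a) :
    (vv a b (I * y)).re < 0 := by
  have := vv_lt (c := -1) hb hab (s := I * y) (by simp [h0])
    (by simpa using hy) (fun u hu hua => by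
      have e : (u : ℂ) * (I * y) = I * ((u * y : ℝ) : ℂ) := by push_cast; ring
      have h1 : |u * y| < 2 * Real.pi := by
        rw [lt_div_iff₀ (hu.trans_le hua)] at hy
        rw [abs_mul, abs_of_pos hu]
        nlinarith [abs_nonneg y]
      have h2 := gg_ax (mul_ne_zero hu.ne' h0) h1
      rw [e]
      simpa using h2)
  simpa using this

theorem vv_ctr (hb : 0 < b) (hab : b < a) {s : ℂ} (hs : s ∈ PP (2 * Real.pi / a)) :
    0 < ((vv a b s + vv a b (-s)) * conj s).re := by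
  have h0 : s ≠ 0 := by
    rintro rfl; exact absurd hs.1 (by simp)
  have h0' : -s ≠ 0 := neg_ne_zero.2 h0
  have hs' : |(-s).im| < 2 * Real.pi / a := by rw [Complex.neg_im, abs_neg]; exact hs.2
  rw [add_mul, Complex.add_re, ← ray_ends, ← ray_ends]
  have := seg_gt (c := 0)
    ((ray_cont (c := conj s) hb hab h0 hs.2).add (ray_cont (c := conj s) hb hab h0' hs'))
    (fun t ht => (ell_ray hb hab h0 hs.2 (Ioo_subset_Icc_self ht)).add
      (ell_ray hb hab h0' hs' (Ioo_subset_Icc_self ht))) ?_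
  · simp only [Pi.add_apply] at this
    linarith
  · intro t ht
    have hp := par hb hab (Ioo_subset_Icc_self ht)
    have hP := par_PP hb hab (Ioo_subset_Icc_self ht) hs
    have h1 := gg_ctr hP
    set u := b + t * (a - b)
    have e : (gg ((u : ℂ) * s) + gg (-((u : ℂ) * s))) * conj ((u : ℂ) * s) =
        (u : ℂ) * (gg ((u : ℂ) * s) * conj s + gg ((u : ℂ) * (-s)) * conj s) := by
      rw [map_mul, Complex.conj_ofReal, mul_neg]; ring
    rw [e, Complex.re_ofReal_mul, Complex.add_re] at h1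
    have h2 : 0 < a - b := by linarith
    have h3 := (pos_iff_pos_of_mul_pos h1).1 hp.1
    rw [← mul_add]
    exact mul_pos (div_pos h2 hp.1) h3

theorem vv_deriv (hb : 0 < b) (hab : b < a) {s : ℂ} (hs : |s.im| < 2 * Real.pi / a)
    (h0 : s ≠ 0) : HasDerivAt (vv a b) ((gg (a * s) - gg (b * s)) / s) s := by
  have ha : 0 < a := hb.trans hab
  have hac : (a : ℂ) ≠ 0 := by exact_mod_cast ha.ne'
  have hbc : (b : ℂ) ≠ 0 := by exact_mod_cast hb.ne'
  have h1 := ell_deriv (mem_u ha (by rw [abs_of_pos ha]) hs) (mul_ne_zero hac h0)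
  have h2 := ell_deriv (mem_u ha (by rw [abs_of_pos hb]; exact hab.le) hs) (mul_ne_zero hbc h0)
  have m1 : HasDerivAt (fun s : ℂ => (a : ℂ) * s) a s := by
    simpa using (hasDerivAt_id s).const_mul (a : ℂ)
  have m2 : HasDerivAt (fun s : ℂ => (b : ℂ) * s) b s := by
    simpa using (hasDerivAt_id s).const_mul (b : ℂ)
  have h3 := (HasDerivAt.comp s h1 m1).sub (HasDerivAt.comp s h2 m2)
  refine (h3.congr_deriv ?_)
  field_simp

theorem vv_der (hb : 0 < b) (hab : b < a) {s : ℂ} (hs : s ∈ PP (2 * Real.pi / a)) :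
    (a - b) / 2 < (deriv (vv a b) s).re := by
  have h0 : s ≠ 0 := by
    rintro rfl; exact absurd hs.1 (by simp)
  rw [(vv_deriv hb hab hs.2 h0).deriv]
  have hl : ∀ t ∈ Icc (0 : ℝ) 1,
      HasDerivAt (fun t : ℝ => (gg (b * s + t * ((a - b : ℝ) * s)) * s⁻¹).re)
        ((deriv gg (b * s + t * ((a - b : ℝ) * s)) * ((a - b : ℝ) * s) * s⁻¹).re) t := by
    intro t ht
    refine hasDerivAt_re_line ?_
    have e : (b : ℂ) * s + t * ((a - b : ℝ) * s) = ((b + t * (a - b) : ℝ) : ℂ) * s := by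
      push_cast; ring
    rw [e]
    exact (gg_deriv (par_PP hb hab ht hs)).differentiableAt
  have := seg_gt (c := (a - b) / 2) (fun t ht => (hl t ht).continuousAt.continuousWithinAt)
    (fun t ht => hl t (Ioo_subset_Icc_self ht)) ?_
  · simp only [Complex.ofReal_one, one_mul, Complex.ofReal_zero, zero_mul, add_zero] at this
    have e : (b : ℂ) * s + (a - b : ℝ) * s = a * s := by push_cast; ring
    rw [e, ← Complex.sub_re, ← sub_mul, ← div_eq_mul_inv] at this
    exact this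
  · intro t ht
    have e : (b : ℂ) * s + t * ((a - b : ℝ) * s) = ((b + t * (a - b) : ℝ) : ℂ) * s := by
      push_cast; ring
    have h1 := gg_der_re (par_PP hb hab (Ioo_subset_Icc_self ht) hs)
    have h2 : 0 < a - b := by linarith
    rw [e]
    have e2 : deriv gg (((b + t * (a - b) : ℝ) : ℂ) * s) * ((a - b : ℝ) * s) * s⁻¹ =
        ((a - b : ℝ) : ℂ) * deriv gg (((b + t * (a - b) : ℝ) : ℂ) * s) := by
      field_simp
    rw [e2, Complex.re_ofReal_mul]
    nlinarith

theorem re_ell {z : ℂ} (hz : |z.im| < 2 * Real.pi) : (ell z).re = Real.log ‖Ex z‖ := by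
  rw [← exp_ell hz, Complex.norm_exp, Real.log_exp]

theorem vv_far (hb : 0 < b) (hab : b < a) (M : ℝ) :
    ∃ C : ℝ, ∀ s ∈ PP (2 * Real.pi / a), C < (vv a b s).re → M < s.re := by
  have ha : 0 < a := hb.trans hab
  set L := 2 * Real.pi / a with hL
  have hpi := Real.pi_pos
  have hKc : IsCompact ((Icc 0 M) ×ℂ (Icc (-L) L)) := isCompact_Icc.reProdIm isCompact_Icc
  have hq : ∀ z ∈ (Icc 0 M) ×ℂ (Icc (-L) L), Ex (b * z) ≠ 0 := by
    intro z hz
    rw [Complex.mem_reProdIm] at hz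
    refine Ex_ne ?_
    rw [Complex.im_ofReal_mul, abs_mul, abs_of_pos hb]
    have h1 : |z.im| ≤ L := abs_le.2 hz.2
    have h2 : b * |z.im| ≤ b * L := mul_le_mul_of_nonneg_left h1 hb.le
    have h3 : b * L < a * L := mul_lt_mul_of_pos_right hab (by positivity)
    have h4 : a * L = 2 * Real.pi := by rw [hL]; field_simp
    linarith
  have hcont : ContinuousOn (fun z : ℂ => Ex (a * z) / Ex (b * z)) ((Icc 0 M) ×ℂ (Icc (-L) L)) := by
    refine ContinuousOn.div ?_ ?_ hq
    · exact (Ex_cont.comp (continuous_const.mul continuous_id)).continuousOn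
    · exact (Ex_cont.comp (continuous_const.mul continuous_id)).continuousOn
  obtain ⟨B, hB⟩ := hKc.exists_bound_of_continuousOn hcont
  refine ⟨B, fun s hs h => ?_⟩
  by_contra hM
  push Not at hM
  have h1 : s ∈ (Icc 0 M) ×ℂ (Icc (-L) L) := by
    rw [Complex.mem_reProdIm]
    exact ⟨⟨hs.1.le, hM⟩, abs_le.1 hs.2.le⟩
  have h2 := hB s h1
  have h3 : Complex.exp (vv a b s) = Ex (a * s) / Ex (b * s) := by
    rw [vv, Complex.exp_sub, exp_ell (mem_u ha (by rw [abs_of_pos ha]) hs.2),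
      exp_ell (mem_u ha (by rw [abs_of_pos hb]; exact hab.le) hs.2)]
  rw [← h3, Complex.norm_exp] at h2
  have := Real.add_one_le_exp (vv a b s).re
  linarith

theorem vv_lim (hb : 0 < b) (hab : b < a) {ε : ℝ} (hε : 0 < ε) :
    ∃ M : ℝ, ∀ s ∈ PP (2 * Real.pi / a), M < s.re →
      ‖vv a b (-s) + (Real.log (a / b) : ℝ)‖ < ε := by
  have ha : 0 < a := hb.trans hab
  have h2 : 0 < a - b := by linarith
  obtain ⟨M, hM0, hM⟩ := lim_aux (ε := ε / (a - b)) (b := b) (by positivity) hb (2 * Real.pi / a)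
  refine ⟨M, fun s hs h => ?_⟩
  have h1 := hM s h hs.2
  have h0 : s ≠ 0 := by
    rintro rfl; exact absurd hs.1 (by simp)
  have hE : 0 < Real.exp (b * s.re) - 1 := by
    have := Real.add_one_le_exp (b * s.re)
    have := mul_pos hb hs.1
    linarith
  have hd : ∀ u ∈ Icc b a, HasDerivAt (fun u : ℝ => ell ((u : ℂ) * (-s)) + (Real.log u : ℝ))
      (s / (Complex.exp (u * s) - 1)) u := by
    intro u hu
    have hu0 : 0 < u := hb.trans_le hu.1
    have huc : (u : ℂ) ≠ 0 := by exact_mod_cast hu0.ne'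
    have hm : (u : ℂ) * (-s) ∈ SS (2 * Real.pi) :=
      mem_u ha (by rw [abs_of_pos hu0]; exact hu.2) (by rw [Complex.neg_im, abs_neg]; exact hs.2)
    have hm' : (u : ℂ) * s ∈ SS (2 * Real.pi) :=
      mem_u ha (by rw [abs_of_pos hu0]; exact hu.2) hs.2
    have k1 := ell_deriv hm (mul_ne_zero huc (neg_ne_zero.2 h0))
    have k2 : HasDerivAt (fun u : ℂ => u * (-s)) (-s) (u : ℂ) := by
      simpa using (hasDerivAt_id (u : ℂ)).mul_const (-s)
    have k3 : HasDerivAt (fun u : ℂ => ell (u * (-s))) (gg (u * (-s)) / (u * (-s)) * (-s)) (u : ℂ) :=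
      HasDerivAt.comp (u : ℂ) (h₂ := ell) k1 k2
    have k4 : HasDerivAt (fun u : ℝ => ell ((u : ℂ) * (-s)))
      (gg (u * (-s)) / (u * (-s)) * (-s)) u := k3.comp_ofReal
    have k5 : HasDerivAt (fun u : ℝ => ((Real.log u : ℝ) : ℂ)) ((u⁻¹ : ℝ) : ℂ) u :=
      (Real.hasDerivAt_log hu0.ne').ofReal_comp
    refine (k4.add k5).congr_deriv ?_
    have he : Complex.exp (u * s) - 1 ≠ 0 :=
      sub_ne_zero.2 (exp_ne_one (mul_ne_zero huc h0) hm')
    have e1 : (u : ℂ) * (-s) = -((u : ℂ) * s) := by ring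
    rw [e1, gg, neg_neg, Ex_of_ne (mul_ne_zero huc h0), one_div_div, Complex.ofReal_inv]
    field_simp
    ring
  have hbd : ∀ u ∈ Icc b a, ‖s / (Complex.exp (u * s) - 1)‖ ≤ ‖s‖ / (Real.exp (b * s.re) - 1) := by
    intro u hu
    rw [norm_div]
    refine div_le_div_of_nonneg_left (norm_nonneg _) hE ?_
    have h3 := norm_sub_norm_le (Complex.exp (u * s)) 1
    rw [Complex.norm_exp, norm_one, Complex.re_ofReal_mul] at h3
    have h4 : Real.exp (b * s.re) ≤ Real.exp (u * s.re) :=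
      Real.exp_le_exp.2 (mul_le_mul_of_nonneg_right hu.1 hs.1.le)
    linarith
  have h5 := (convex_Icc b a).norm_image_sub_le_of_norm_hasDerivWithin_le
    (fun u hu => (hd u hu).hasDerivWithinAt) hbd (left_mem_Icc.2 hab.le) (right_mem_Icc.2 hab.le)
  have h6 : ell ((a : ℂ) * (-s)) + (Real.log a : ℝ) - (ell ((b : ℂ) * (-s)) + (Real.log b : ℝ)) =
      vv a b (-s) + (Real.log (a / b) : ℝ) := by
    rw [Real.log_div ha.ne' hb.ne', vv]
    push_cast; ring
  rw [h6] at h5
  refine h5.trans_lt ?_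
  rw [Real.norm_eq_abs, abs_of_pos h2, div_mul_eq_mul_div, div_lt_iff₀ hE]
  rw [div_mul_eq_mul_div, lt_div_iff₀ h2] at h1
  exact h1

theorem vv_bot (hb : 0 < b) (hab : b < a) :
    Tendsto (fun y : ℝ => (vv a b (I * y)).re) (𝓝[<] (2 * Real.pi / a)) atBot := by
  have ha : 0 < a := hb.trans hab
  set L := 2 * Real.pi / a with hL
  have hpi := Real.pi_pos
  have hL0 : 0 < L := by positivity
  have h4 : a * L = 2 * Real.pi := by rw [hL]; field_simp
  have hI : Ioo 0 L ∈ 𝓝[<] L := Ioo_mem_nhdsLT hL0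
  have hmem : ∀ y ∈ Ioo 0 L, |(I * (y : ℂ)).im| < L := by
    intro y hy
    simpa [abs_of_pos hy.1] using hy.2
  have h1 : (fun y : ℝ => (vv a b (I * y)).re) =ᶠ[𝓝[<] L]
      fun y => Real.log ‖Ex (a * (I * y))‖ + -Real.log ‖Ex (b * (I * y))‖ := by
    filter_upwards [hI] with y hy
    rw [vv, Complex.sub_re, re_ell (mem_u ha (by rw [abs_of_pos ha]) (hmem y hy)),
      re_ell (mem_u ha (by rw [abs_of_pos hb]; exact hab.le) (hmem y hy))]
    ring
  refine Tendsto.congr' h1.symm ?_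
  have hbL : Ex (b * (I * L)) ≠ 0 := by
    refine Ex_ne ?_
    have : ((b : ℂ) * (I * L)).im = b * L := by simp
    rw [this, abs_of_pos (by positivity)]
    nlinarith
  have hc : ∀ c : ℝ, Continuous fun y : ℝ => ‖Ex (c * (I * y))‖ := by
    intro c
    exact (Ex_cont.comp (continuous_const.mul (continuous_const.mul Complex.continuous_ofReal))).norm
  have t2 : Tendsto (fun y : ℝ => -Real.log ‖Ex (b * (I * y))‖) (𝓝[<] L)
      (𝓝 (-Real.log ‖Ex (b * (I * L))‖)) := by
    refine Tendsto.neg ?_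
    refine ((Real.continuousAt_log (norm_ne_zero_iff.2 hbL)).tendsto.comp ?_)
    exact ((hc b).tendsto L).mono_left nhdsWithin_le_nhds
  refine Tendsto.atBot_add ?_ t2
  refine Real.tendsto_log_nhdsGT_zero.comp ?_
  rw [tendsto_nhdsWithin_iff]
  constructor
  · have h5 := ((hc a).tendsto L).mono_left (nhdsWithin_le_nhds (s := Iio L))
    have h6 : Ex (a * (I * L)) = 0 := by
      have e : (a : ℂ) * (I * L) = 2 * Real.pi * I := by
        have : ((a * L : ℝ) : ℂ) = ((2 * Real.pi : ℝ) : ℂ) := by rw [h4]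
        push_cast at this
        linear_combination I * this
      rw [e, Ex_of_ne (by simp [hpi.ne']), Complex.exp_two_pi_mul_I]
      simp
    rw [h6, norm_zero] at h5
    exact h5
  · filter_upwards [hI] with y hy
    exact norm_pos_iff.2 (Ex_ne (mem_u ha (by rw [abs_of_pos ha]) (hmem y hy)))

theorem KDv (hb : 0 < b) (hab : b < a) : KD (vv a b) (a - b) (2 * Real.pi / a)
    (Real.log (a / b)) where
  hκ := by linarith
  hL := by have := hb.trans hab; positivity
  hlam := Real.log_pos (by rwa [one_lt_div hb])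
  an := by
    intro s hs
    have ha := hb.trans hab
    have h1 := ell_dAt (mem_u ha (by rw [abs_of_pos ha]) hs)
    have h2 := ell_dAt (mem_u (u := b) ha (by rw [abs_of_pos hb]; exact hab.le) hs)
    have m : ∀ c : ℂ, DifferentiableAt ℂ (fun s : ℂ => c * s) s := by
      intro c; fun_prop
    exact ((DifferentiableAt.comp s h1 (m a)).sub
      (DifferentiableAt.comp s h2 (m b))).differentiableWithinAt
  v0 := by simp [vv]
  dif := by
    intro s _
    have h1 := ell_sub (a * s)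
    have h2 := ell_sub (b * s)
    rw [vv, vv, mul_neg, mul_neg]
    push_cast
    linear_combination h1 - h2
  cj := by
    intro s hs
    have ha := hb.trans hab
    have h1 := ell_conj (mem_u ha (by rw [abs_of_pos ha]) hs)
    have h2 := ell_conj (mem_u (u := b) ha (by rw [abs_of_pos hb]; exact hab.le) hs)
    rw [map_mul, Complex.conj_ofReal] at h1 h2
    rw [vv, vv, map_sub, h1, h2]
  der := fun s hs => vv_der hb hab hs
  neg := fun s hs => vv_neg hb hab hs
  ctr := fun s hs => vv_ctr hb hab hs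
  ax := fun y h0 h1 => vv_ax hb hab h0 h1
  far := by
    intro M
    obtain ⟨C, hC⟩ := vv_far hb hab M
    exact ⟨C, fun s hs _ h => hC s hs h⟩
  lim := by
    intro ε hε
    obtain ⟨M, hM⟩ := vv_lim hb hab hε
    exact ⟨M, fun s hs _ _ h => hM s hs h⟩
  bot := vv_bot hb hab

end

end Vale.Agent.P097.H244
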