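import Vale.Agent.P097.H244.K4
import Vale.Agent.P097.H244.Inst5

/-! # P097 / RAT-K5: no pencil law at an isotropic end. -/

set_option linter.all false

open Complex Metric Filter Topology Set
open scoped ComplexConjugate

namespace Vale.Agent.P097.H244

open Vale.Agent.P097.H402.Rat

theorem vv_eq {m : ℝ} (h0 : 0 < m) (h3 : m < 3) :
    ∀ᶠ s in 𝓝 (0 : ℂ), vI m s = vv (3 + m) (3 - m) s := by
  have hb : (0 : ℝ) < 3 - m := by linarith
  have hab : 3 - m < 3 + m := by linarith
  have ha : (0 : ℝ) < 3 + m := by linarith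
  have K := KDv hb hab
  have h1 : SS (2 * Real.pi / (3 + m)) ∈ 𝓝 (0 : ℂ) :=
    (isOpen_SS _).mem_nhds (by show |(0 : ℂ).im| < _; simpa using K.hL)
  have h2 : ContinuousAt (vv (3 + m) (3 - m)) 0 :=
    (K.an.differentiableAt h1).continuousAt
  have h4 : ∀ᶠ s in 𝓝 (0 : ℂ), |(vv (3 + m) (3 - m) s).im| < Real.pi := by
    have h5 : ContinuousAt (fun s => |(vv (3 + m) (3 - m) s).im|) 0 :=
      (continuous_abs.comp Complex.continuous_im).continuousAt.comp h2
    have h6 : |(vv (3 + m) (3 - m) 0).im| < Real.pi := by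
      rw [K.v0]; simpa using Real.pi_pos
    exact h5.eventually_lt continuousAt_const h6
  filter_upwards [h1, h4] with s hs hs2
  have e : Vale.Agent.P097.H402.Rat.Ex ((3 + m) * s) /
      Vale.Agent.P097.H402.Rat.Ex ((3 - m) * s) = Complex.exp (vv (3 + m) (3 - m) s) := by
    have e1 := exp_ell (mem_u ha (by rw [abs_of_pos ha]) hs)
    have e2 := exp_ell (mem_u (u := 3 - m) ha (by rw [abs_of_pos hb]; exact hab.le) hs)
    rw [vv, Complex.exp_sub, e1, e2, Ex_same, Ex_same]
    push_cast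
    rfl
  rw [vI, e]
  exact Complex.log_exp (by linarith [(abs_lt.1 hs2).1]) (abs_lt.1 hs2).2.le

theorem pk5 : PK5 := by
  intro m f h0 h3 h1 h
  have hb : (0 : ℝ) < 3 - m := by linarith
  have hab : 3 - m < 3 + m := by linarith
  have ha : (0 : ℝ) < 3 + m := by linarith
  have hv := vv_eq h0 h3
  have hv' : ∀ᶠ s in 𝓝 (0 : ℂ), vI m (-s) = vv (3 + m) (3 - m) (-s) := by
    have : Tendsto (fun s : ℂ => -s) (𝓝 0) (𝓝 0) := by
      simpa using (continuous_neg (G := ℂ)).tendsto 0
    exact this.eventually hv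
  have hk := (KDv hb hab).kill (f := f) (w := 3) h.an h.ne h.refl (by
    filter_upwards [h.chord, hv, hv'] with s h4 h5 h6
    rw [← h5, ← h6, h4]
    push_cast
    rfl)
  -- `e ^ (12 π i / (3 + m)) = -1`
  have hA : ((3 + m : ℝ) : ℂ) ≠ 0 := by exact_mod_cast ha.ne'
  set X : ℂ := ((3 : ℝ) : ℂ) * (I * ((2 * Real.pi / (3 + m) : ℝ) : ℂ)) with hX
  have h4 : Complex.exp (2 * X) = Complex.exp (Real.pi * I) := by
    rw [Complex.exp_pi_mul_I, two_mul, Complex.exp_add]
    have h5 : Complex.exp (-X) * Complex.exp X = 1 := by rw [← Complex.exp_add]; simp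
    linear_combination Complex.exp X * hk - h5
  obtain ⟨n, hn⟩ := Complex.exp_eq_exp_iff_exists_int.1 h4
  have h5 := congrArg Complex.im hn
  have h6 : (2 * X).im = 12 * Real.pi / (3 + m) := by
    have : 2 * X = ((12 * Real.pi / (3 + m) : ℝ) : ℂ) * I := by
      rw [hX]; push_cast; ring
    rw [this, Complex.im_ofReal_mul, Complex.I_im, mul_one]
  have h7 : ((Real.pi : ℂ) * I + n * (2 * Real.pi * I)).im = Real.pi * (1 + 2 * n) := by
    simp; ring
  rw [h6, h7, div_eq_iff ha.ne'] at h5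
  have h8 : (12 : ℝ) = (1 + 2 * n) * (3 + m) := by
    have : Real.pi * 12 = Real.pi * ((1 + 2 * n) * (3 + m)) := by linear_combination h5
    exact mul_left_cancel₀ Real.pi_ne_zero this
  -- `12 / (3 + m)` lies in `(2, 4)`
  have h9 : (2 : ℝ) < 1 + 2 * n := by
    by_contra hc
    push Not at hc
    nlinarith
  have h10 : (1 : ℝ) + 2 * n < 4 := by
    by_contra hc
    push Not at hc
    nlinarith
  have h11 : (0 : ℝ) < n := by linarith
  have h12 : (n : ℝ) < 2 := by linarith
  have h13 : n = 1 := by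
    have a1 : 0 < n := by exact_mod_cast h11
    have a2 : n < 2 := by exact_mod_cast h12
    omega
  rw [h13] at h8
  apply h1
  push_cast at h8
  linarith

end Vale.Agent.P097.H244
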