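import Vale.Agent.P097.H244.Kill

/-! # P097 / H244: the function `g z = z / (1 - e ^ (-z)) - 1` and its inequalities. -/

set_option linter.all false

open Complex Metric Filter Topology Set
open scoped ComplexConjugate

namespace Vale.Agent.P097.H244

/-! ## real inequalities -/

theorem t_cos_lt {t : ℝ} (h0 : 0 < t) (h1 : t < Real.pi) : t * Real.cos t < Real.sin t := by
  have hs : 0 < Real.sin t := Real.sin_pos_of_pos_of_lt_pi h0 h1
  rcases lt_or_ge t (Real.pi / 2) with h | h
  · have hc : 0 < Real.cos t := Real.cos_pos_of_mem_Ioo ⟨by linarith, h⟩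
    have := Real.lt_tan h0 h
    rw [Real.tan_eq_sin_div_cos, lt_div_iff₀ hc] at this
    exact this
  · have hc : Real.cos t ≤ 0 := Real.cos_nonpos_of_pi_div_two_le_of_le h (by linarith)
    nlinarith

theorem y_sin_le {y : ℝ} (h : |y| < 2 * Real.pi) : y * Real.sin y ≤ 2 * (1 - Real.cos y) := by
  have key : ∀ y : ℝ, 0 ≤ y → y < 2 * Real.pi → y * Real.sin y ≤ 2 * (1 - Real.cos y) := by
    intro y h0 h1
    set t := y / 2 with ht
    have hy : y = 2 * t := by rw [ht]; ring
    have hs0 : 0 ≤ Real.sin t := Real.sin_nonneg_of_nonneg_of_le_pi (by positivity) (by linarith)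
    have hc : t * Real.cos t ≤ Real.sin t := by
      rcases h0.eq_or_lt with h2 | h2
      · have : t = 0 := by rw [ht, ← h2]; simp
        rw [this]; simp
      · exact (t_cos_lt (by positivity) (by linarith)).le
    rw [hy, Real.sin_two_mul, Real.cos_two_mul]
    have := Real.sin_sq_add_cos_sq t
    nlinarith
  rcases le_total 0 y with h0 | h0
  · rw [abs_of_nonneg h0] at h
    exact key y h0 h
  · rw [abs_of_nonpos h0] at h
    have := key (-y) (by linarith) h
    rw [Real.sin_neg, Real.cos_neg] at this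
    linarith

theorem sinh_lt_mul_cosh {x : ℝ} (h : 0 < x) : Real.sinh x < x * Real.cosh x := by
  obtain ⟨c, hc, h1⟩ := exists_hasDerivAt_eq_slope Real.sinh Real.cosh h
    Real.continuous_sinh.continuousOn (fun x _ => Real.hasDerivAt_sinh x)
  rw [Real.sinh_zero, sub_zero, sub_zero, eq_div_iff h.ne'] at h1
  rw [← h1, mul_comm x]
  have : Real.cosh c < Real.cosh x := by
    rw [Real.cosh_lt_cosh, abs_of_pos hc.1, abs_of_pos h]
    exact hc.2
  exact mul_lt_mul_of_pos_right this h

theorem one_lt_cosh' {x : ℝ} (h : 0 < x) : 1 < Real.cosh x := Real.one_lt_cosh.2 h.ne'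

theorem cos_lt_cosh {x y : ℝ} (h : 0 < x) : Real.cos y < Real.cosh x :=
  (Real.cos_le_one y).trans_lt (one_lt_cosh' h)

/-- numerator of `Re (g' - 1/2)` -/
theorem num_der {x y : ℝ} (hx : 0 < x) (hy : |y| < 2 * Real.pi) :
    0 < (Real.sinh x * Real.cos y - x) * (Real.cosh x * Real.cos y - 1) +
      (Real.cosh x * Real.sin y - y) * (Real.sinh x * Real.sin y) := by
  have h1 := y_sin_le hy
  have h2 := sinh_lt_mul_cosh hx
  have h3 := one_lt_cosh' hx
  have h4 : x < Real.sinh x := Real.self_lt_sinh_iff.2 hx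
  have h5 := Real.cos_le_one y
  have h6 := Real.sin_sq_add_cos_sq y
  have h7 : 0 < Real.sinh x := by linarith
  have e : (Real.sinh x * Real.cos y - x) * (Real.cosh x * Real.cos y - 1) +
      (Real.cosh x * Real.sin y - y) * (Real.sinh x * Real.sin y) =
      Real.sinh x * Real.cosh x * (Real.sin y ^ 2 + Real.cos y ^ 2) - Real.sinh x * Real.cos y -
        x * Real.cosh x * Real.cos y + x - Real.sinh x * (y * Real.sin y) := by ring
  rw [e, h6]
  have h8 : Real.sinh x * (y * Real.sin y) ≤ Real.sinh x * (2 * (1 - Real.cos y)) :=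
    mul_le_mul_of_nonneg_left h1 h7.le
  have h9 : 0 ≤ (x * Real.cosh x - Real.sinh x) * (1 - Real.cos y) :=
    mul_nonneg (by linarith) (by linarith)
  have h10 : 0 < (Real.cosh x - 1) * (Real.sinh x - x) := mul_pos (by linarith) (by linarith)
  nlinarith

/-- numerator of `1 - Re (z / (e ^ z - 1))` -/
theorem num_neg {x y : ℝ} (hx : 0 < x) (hy : |y| < 2 * Real.pi) :
    x * (Real.exp x * Real.cos y - 1) + y * (Real.exp x * Real.sin y) <
      (Real.exp x * Real.cos y - 1) ^ 2 + (Real.exp x * Real.sin y) ^ 2 := by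
  have h1 := y_sin_le hy
  have h2 : x + 1 < Real.exp x := Real.add_one_lt_exp hx.ne'
  have h5 := Real.cos_le_one y
  have h6 := Real.sin_sq_add_cos_sq y
  set E := Real.exp x with hE
  have hE0 : 0 < E := Real.exp_pos x
  have e : (E * Real.cos y - 1) ^ 2 + (E * Real.sin y) ^ 2 =
      E ^ 2 * (Real.sin y ^ 2 + Real.cos y ^ 2) - 2 * E * Real.cos y + 1 := by ring
  rw [e, h6]
  have h8 : E * (y * Real.sin y) ≤ E * (2 * (1 - Real.cos y)) :=
    mul_le_mul_of_nonneg_left h1 hE0.le
  have h9 : 0 ≤ (x * E) * (1 - Real.cos y) := mul_nonneg (by positivity) (by linarith)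
  have h10 : 0 < (E - 1) * (E - 1 - x) := mul_pos (by linarith) (by linarith)
  nlinarith

/-- centre inequality -/
theorem num_ctr {x y : ℝ} (hx : 0 < x) :
    2 * x * (Real.cosh x - Real.cos y) < Real.sinh x * (x ^ 2 + y ^ 2) := by
  have h1 : 1 - y ^ 2 / 2 ≤ Real.cos y := Real.one_sub_sq_div_two_le_cos
  have h2 := sinh_lt_mul_cosh (half_pos hx)
  have h4 : x < Real.sinh x := Real.self_lt_sinh_iff.2 hx
  have hx2 : x = 2 * (x / 2) := by ring
  have h7 : 0 < Real.sinh (x / 2) := Real.sinh_pos_iff.2 (by positivity)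
  have h8 : 2 * (Real.cosh x - 1) < x * Real.sinh x := by
    have e1 : Real.cosh x = 2 * Real.sinh (x / 2) ^ 2 + 1 := by
      conv_lhs => rw [hx2]
      rw [Real.cosh_two_mul, Real.cosh_sq]; ring
    have e2 : Real.sinh x = 2 * Real.sinh (x / 2) * Real.cosh (x / 2) := by
      conv_lhs => rw [hx2]
      rw [Real.sinh_two_mul]
    rw [e1, e2]
    nlinarith [mul_lt_mul_of_pos_left h2 h7]
  have h9 : 0 ≤ 1 - Real.cos y := by linarith [Real.cos_le_one y]
  have h10 : x * (2 * (Real.cosh x - 1)) < x * (x * Real.sinh x) := mul_lt_mul_of_pos_left h8 hx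
  have h11 : x * (2 * (1 - Real.cos y)) ≤ Real.sinh x * y ^ 2 := by
    have : 2 * (1 - Real.cos y) ≤ y ^ 2 := by linarith
    calc x * (2 * (1 - Real.cos y)) ≤ Real.sinh x * (2 * (1 - Real.cos y)) :=
          mul_le_mul_of_nonneg_right h4.le (by linarith)
      _ ≤ Real.sinh x * y ^ 2 := mul_le_mul_of_nonneg_left this (by linarith)
  nlinarith

/-! ## the entire function `Ex` -/

/-- `(e ^ z - 1) / z` -/
noncomputable def Ex (z : ℂ) : ℂ := if z = 0 then 1 else (Complex.exp z - 1) / z

theorem Ex_zero : Ex 0 = 1 := by simp [Ex]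

theorem Ex_of_ne {z : ℂ} (h : z ≠ 0) : Ex z = (Complex.exp z - 1) / z := by simp [Ex, h]

theorem Ex_eq : Ex = dslope Complex.exp 0 := by
  funext z
  rcases eq_or_ne z 0 with rfl | h
  · rw [dslope_same, Ex_zero]
    simp
  · rw [dslope_of_ne _ h, Ex_of_ne h, slope_def_field]
    simp

theorem Ex_diff : Differentiable ℂ Ex := by
  rw [← differentiableOn_univ, Ex_eq, Complex.differentiableOn_dslope univ_mem]
  exact Complex.differentiable_exp.differentiableOn

theorem Ex_cont : Continuous Ex := Ex_diff.continuous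

theorem mul_Ex (z : ℂ) : z * Ex z = Complex.exp z - 1 := by
  rcases eq_or_ne z 0 with rfl | h
  · simp
  · rw [Ex_of_ne h]
    field_simp

theorem Ex_neg (z : ℂ) : Ex (-z) = Complex.exp (-z) * Ex z := by
  rcases eq_or_ne z 0 with rfl | h
  · simp
  · rw [Ex_of_ne h, Ex_of_ne (neg_ne_zero.2 h), Complex.exp_neg]
    have := Complex.exp_ne_zero z
    field_simp
    ring

theorem Ex_conj (z : ℂ) : Ex (conj z) = conj (Ex z) := by
  rcases eq_or_ne z 0 with rfl | h
  · simp [Ex_zero]
  · rw [Ex_of_ne h, Ex_of_ne (by simpa using h), Complex.exp_conj]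
    simp

theorem exp_ne_one {z : ℂ} (h : z ≠ 0) (hz : |z.im| < 2 * Real.pi) : Complex.exp z ≠ 1 := by
  intro h1
  obtain ⟨n, hn⟩ := Complex.exp_eq_one_iff.1 h1
  have h2 : z.im = n * (2 * Real.pi) := by
    rw [hn]; simp
  have hp : 0 < 2 * Real.pi := by positivity
  rw [h2, abs_mul, abs_of_pos hp] at hz
  have h3 : |(n : ℝ)| < 1 := by
    by_contra h4
    push Not at h4
    nlinarith
  have h4 : n = 0 := by
    have : |n| < 1 := by exact_mod_cast h3
    exact Int.abs_lt_one_iff.1 this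
  apply h
  rw [hn, h4]; simp

theorem Ex_ne {z : ℂ} (hz : |z.im| < 2 * Real.pi) : Ex z ≠ 0 := by
  rcases eq_or_ne z 0 with rfl | h
  · rw [Ex_zero]; exact one_ne_zero
  · rw [Ex_of_ne h]
    exact div_ne_zero (sub_ne_zero.2 (exp_ne_one h hz)) h

/-! ## the function `g` -/

noncomputable def gg (z : ℂ) : ℂ := 1 / Ex (-z) - 1

theorem gg_zero : gg 0 = 0 := by simp [gg, Ex_zero]

theorem neg_mem {L : ℝ} {z : ℂ} (hz : z ∈ SS L) : -z ∈ SS L := by
  show |(-z).im| < L
  rw [Complex.neg_im, abs_neg]; exact hz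

theorem gg_diff : DifferentiableOn ℂ gg (SS (2 * Real.pi)) := by
  intro z hz
  have h1 : Ex (-z) ≠ 0 := Ex_ne (neg_mem hz)
  have h2 : DifferentiableAt ℂ (fun z => Ex (-z)) z :=
    (Ex_diff (-z)).comp z differentiableAt_id.neg
  exact (((differentiableAt_const 1).div h2 h1).sub_const 1).differentiableWithinAt

theorem gg_sub {z : ℂ} (hz : z ∈ SS (2 * Real.pi)) : gg z - gg (-z) = z := by
  have h1 : Ex (-z) ≠ 0 := Ex_ne (neg_mem hz)
  have h2 : Ex z ≠ 0 := Ex_ne hz
  have h3 := mul_Ex (-z)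
  have h4 := Ex_neg z
  have h5 : Ex z - Ex (-z) = z * Ex (-z) * Ex z := by
    linear_combination Ex z * h3 - h4
  rw [gg, gg, neg_neg]
  field_simp
  linear_combination h5

theorem gg_conj (z : ℂ) : gg (conj z) = conj (gg z) := by
  rw [gg, gg, ← map_neg, Ex_conj]
  simp

theorem gg_of_ne {z : ℂ} (h : z ≠ 0) : gg z = z / (1 - Complex.exp (-z)) - 1 := by
  rw [gg, Ex_of_ne (neg_ne_zero.2 h)]
  congr 1
  rw [one_div_div, ← neg_sub (1 : ℂ), neg_div_neg_eq]

theorem normSq_cosh (x y : ℝ) :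
    (Real.cosh x * Real.cos y - 1) ^ 2 + (Real.sinh x * Real.sin y) ^ 2 =
      (Real.cosh x - Real.cos y) ^ 2 := by
  have h1 := Real.cosh_sq x
  have h2 := Real.sin_sq_add_cos_sq y
  have h3 : Real.sinh x ^ 2 = Real.cosh x ^ 2 - 1 := by linarith
  have h4 : Real.sin y ^ 2 = 1 - Real.cos y ^ 2 := by linarith
  rw [mul_pow (Real.sinh x), h3, h4]
  ring

theorem sub_re_cosh (z : ℂ) : (Complex.cosh z - 1).re = Real.cosh z.re * Real.cos z.im - 1 := by
  conv_lhs => rw [← Complex.re_add_im z]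
  rw [Complex.cosh_add, Complex.cosh_mul_I, Complex.sinh_mul_I]
  simp [← Complex.ofReal_cosh, ← Complex.ofReal_sinh, ← Complex.ofReal_cos, ← Complex.ofReal_sin]

theorem sub_im_cosh (z : ℂ) : (Complex.cosh z - 1).im = Real.sinh z.re * Real.sin z.im := by
  conv_lhs => rw [← Complex.re_add_im z]
  rw [Complex.cosh_add, Complex.cosh_mul_I, Complex.sinh_mul_I]
  simp [← Complex.ofReal_cosh, ← Complex.ofReal_sinh, ← Complex.ofReal_cos, ← Complex.ofReal_sin]

theorem re_sinh (z : ℂ) : (Complex.sinh z).re = Real.sinh z.re * Real.cos z.im := by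
  conv_lhs => rw [← Complex.re_add_im z]
  rw [Complex.sinh_add, Complex.cosh_mul_I, Complex.sinh_mul_I]
  simp [← Complex.ofReal_cosh, ← Complex.ofReal_sinh, ← Complex.ofReal_cos, ← Complex.ofReal_sin]

theorem im_sinh (z : ℂ) : (Complex.sinh z).im = Real.cosh z.re * Real.sin z.im := by
  conv_lhs => rw [← Complex.re_add_im z]
  rw [Complex.sinh_add, Complex.cosh_mul_I, Complex.sinh_mul_I]
  simp [← Complex.ofReal_cosh, ← Complex.ofReal_sinh, ← Complex.ofReal_cos, ← Complex.ofReal_sin]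

theorem normSq_c (z : ℂ) :
    Complex.normSq (Complex.cosh z - 1) = (Real.cosh z.re - Real.cos z.im) ^ 2 := by
  rw [Complex.normSq_apply, sub_re_cosh, sub_im_cosh, ← normSq_cosh]
  ring

theorem cosh_sub_ne {z : ℂ} (h : 0 < z.re) : Complex.cosh z - 1 ≠ 0 := by
  rw [← Complex.normSq_pos, normSq_c]
  have := cos_lt_cosh (y := z.im) h
  exact pow_pos (by linarith) 2

/-- derivative of `g` -/
theorem gg_deriv {z : ℂ} (hz : z ∈ PP (2 * Real.pi)) :
    HasDerivAt gg (1 / 2 + (Complex.sinh z - z) / (2 * (Complex.cosh z - 1))) z := by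
  have h0 : z ≠ 0 := by
    rintro rfl; exact absurd hz.1 (by simp)
  have he : (1 : ℂ) - Complex.exp (-z) ≠ 0 := by
    rw [sub_ne_zero]
    exact (exp_ne_one (neg_ne_zero.2 h0) (neg_mem hz.2)).symm
  have h1 : HasDerivAt (fun z : ℂ => z / (1 - Complex.exp (-z)) - 1)
      ((1 * (1 - Complex.exp (-z)) - z * (-(Complex.exp (-z) * -1))) / (1 - Complex.exp (-z)) ^ 2)
      z := by
    have ha : HasDerivAt (fun z : ℂ => Complex.exp (-z)) (Complex.exp (-z) * -1) z :=
      (hasDerivAt_neg z).cexp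
    exact (((hasDerivAt_id z).div (ha.const_sub 1) he).sub_const 1)
  have h2 : gg =ᶠ[𝓝 z] fun z : ℂ => z / (1 - Complex.exp (-z)) - 1 := by
    filter_upwards [isOpen_ne.mem_nhds h0] with w hw
    exact gg_of_ne hw
  refine (h1.congr_of_eventuallyEq h2).congr_deriv ?_
  have hc := cosh_sub_ne hz.1
  rw [Complex.cosh, Complex.sinh] at *
  have hm : Complex.exp z * Complex.exp (-z) = 1 := by rw [← Complex.exp_add]; simp
  have hc' : Complex.exp z + Complex.exp (-z) - 2 ≠ 0 := by
    intro h; apply hc; linear_combination h / 2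
  have e1 : (1 / 2 : ℂ) + ((Complex.exp z - Complex.exp (-z)) / 2 - z) /
      (2 * ((Complex.exp z + Complex.exp (-z)) / 2 - 1)) =
      (Complex.exp z - 1 - z) / (Complex.exp z + Complex.exp (-z) - 2) := by
    have : 2 * ((Complex.exp z + Complex.exp (-z)) / 2 - 1) =
      Complex.exp z + Complex.exp (-z) - 2 := by ring
    rw [this]
    field_simp
    ring
  rw [e1, div_eq_div_iff (pow_ne_zero 2 he) hc']
  generalize Complex.exp z = X at *
  generalize Complex.exp (-z) = Y at *
  linear_combination (1 - Y - z) * hm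

theorem gg_der_re {z : ℂ} (hz : z ∈ PP (2 * Real.pi)) : 1 / 2 < (deriv gg z).re := by
  rw [(gg_deriv hz).deriv, Complex.add_re]
  have h1 : ((1 / 2 : ℂ)).re = 1 / 2 := by norm_num
  rw [h1]
  have h2 : 0 < ((Complex.sinh z - z) / (2 * (Complex.cosh z - 1))).re := by
    have e : (Complex.sinh z - z) / (2 * (Complex.cosh z - 1)) =
        ((1 / 2 : ℝ) : ℂ) * ((Complex.sinh z - z) / (Complex.cosh z - 1)) := by
      have := cosh_sub_ne hz.1
      push_cast
      field_simp
    rw [e, Complex.re_ofReal_mul, Complex.div_re, sub_re_cosh, sub_im_cosh, Complex.sub_re,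
      Complex.sub_im, re_sinh, im_sinh, ← add_div]
    have h3 := num_der hz.1 hz.2
    have h4 : 0 < Complex.normSq (Complex.cosh z - 1) := Complex.normSq_pos.2 (cosh_sub_ne hz.1)
    positivity
  linarith

theorem gg_neg_re {z : ℂ} (hz : z ∈ PP (2 * Real.pi)) : (gg (-z)).re < 0 := by
  have h0 : z ≠ 0 := by
    rintro rfl; exact absurd hz.1 (by simp)
  have h1 : Complex.exp z - 1 ≠ 0 := sub_ne_zero.2 (exp_ne_one h0 hz.2)
  have h2 : gg (-z) = z / (Complex.exp z - 1) - 1 := by
    rw [gg, neg_neg, Ex_of_ne h0, one_div_div]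
  have h3 : 0 < Complex.normSq (Complex.exp z - 1) := Complex.normSq_pos.2 h1
  rw [h2, Complex.sub_re, Complex.div_re, Complex.one_re, ← add_div, sub_neg, div_lt_one h3,
    Complex.normSq_apply, Complex.sub_re, Complex.sub_im, Complex.exp_re, Complex.exp_im,
    Complex.one_re, Complex.one_im, sub_zero]
  have := num_neg hz.1 hz.2
  nlinarith

theorem gg_ctr {z : ℂ} (hz : z ∈ PP (2 * Real.pi)) : 0 < ((gg z + gg (-z)) * conj z).re := by
  have h0 : z ≠ 0 := by
    rintro rfl; exact absurd hz.1 (by simp)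
  have h1 : Complex.exp z - 1 ≠ 0 := sub_ne_zero.2 (exp_ne_one h0 hz.2)
  have he : (1 : ℂ) - Complex.exp (-z) ≠ 0 := by
    rw [sub_ne_zero]
    exact (exp_ne_one (neg_ne_zero.2 h0) (neg_mem hz.2)).symm
  have h2 : gg (-z) = z / (Complex.exp z - 1) - 1 := by
    rw [gg, neg_neg, Ex_of_ne h0, one_div_div]
  have hc := cosh_sub_ne hz.1
  have hm : Complex.exp z * Complex.exp (-z) = 1 := by rw [← Complex.exp_add]; simp
  have h3 : gg z + gg (-z) = z * (Complex.sinh z / (Complex.cosh z - 1)) - 2 := by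
    rw [h2, gg_of_ne h0]
    have hc' : Complex.exp z + Complex.exp (-z) - 2 ≠ 0 := by
      intro h; apply hc; rw [Complex.cosh]; linear_combination h / 2
    have e1 : Complex.sinh z / (Complex.cosh z - 1) =
        (Complex.exp z - Complex.exp (-z)) / (Complex.exp z + Complex.exp (-z) - 2) := by
      rw [div_eq_div_iff hc hc', Complex.sinh, Complex.cosh]
      ring
    have e2 : 1 / (1 - Complex.exp (-z)) + 1 / (Complex.exp z - 1) =
        (Complex.exp z - Complex.exp (-z)) / (Complex.exp z + Complex.exp (-z) - 2) := by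
      rw [div_add_div _ _ he h1, div_eq_div_iff (mul_ne_zero he h1) hc']
      generalize Complex.exp z = X at *
      generalize Complex.exp (-z) = Y at *
      linear_combination (X - Y) * hm
    rw [e1, ← e2]
    ring
  have h4 : ((gg z + gg (-z)) * conj z).re =
      (z.re ^ 2 + z.im ^ 2) * (Complex.sinh z / (Complex.cosh z - 1)).re - 2 * z.re := by
    have : (gg z + gg (-z)) * conj z =
        ((z.re ^ 2 + z.im ^ 2 : ℝ) : ℂ) * (Complex.sinh z / (Complex.cosh z - 1)) -
          ((2 : ℝ) : ℂ) * conj z := by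
      have hh : z * conj z = ((z.re ^ 2 + z.im ^ 2 : ℝ) : ℂ) := by
        rw [Complex.mul_conj, Complex.normSq_apply]
        push_cast; ring
      rw [h3, ← hh]
      push_cast
      ring
    rw [this, Complex.sub_re, Complex.re_ofReal_mul, Complex.re_ofReal_mul, Complex.conj_re]
  have h5 : (Complex.sinh z / (Complex.cosh z - 1)).re =
      Real.sinh z.re / (Real.cosh z.re - Real.cos z.im) := by
    have hp := cos_lt_cosh (y := z.im) hz.1
    rw [Complex.div_re, sub_re_cosh, sub_im_cosh, re_sinh, im_sinh, ← add_div, normSq_c,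
      div_eq_div_iff (by positivity) (by linarith)]
    have h7 := Real.sin_sq_add_cos_sq z.im
    linear_combination (Real.sinh z.re * Real.cosh z.re * (Real.cosh z.re - Real.cos z.im)) * h7
  have hp := cos_lt_cosh (y := z.im) hz.1
  have hp' : 0 < Real.cosh z.re - Real.cos z.im := by linarith
  have h6 := num_ctr (y := z.im) hz.1
  rw [h4, h5, sub_pos, mul_div_assoc', lt_div_iff₀ hp']
  nlinarith

theorem y_sin_lt {y : ℝ} (h0 : y ≠ 0) (h : |y| < 2 * Real.pi) :
    y * Real.sin y < 2 * (1 - Real.cos y) := by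
  have key : ∀ y : ℝ, 0 < y → y < 2 * Real.pi → y * Real.sin y < 2 * (1 - Real.cos y) := by
    intro y h0 h1
    set t := y / 2 with ht
    have hy : y = 2 * t := by rw [ht]; ring
    have hs0 : 0 < Real.sin t := Real.sin_pos_of_pos_of_lt_pi (by positivity) (by linarith)
    have hc : t * Real.cos t < Real.sin t := t_cos_lt (by positivity) (by linarith)
    rw [hy, Real.sin_two_mul, Real.cos_two_mul]
    have := Real.sin_sq_add_cos_sq t
    nlinarith
  rcases lt_or_gt_of_ne h0 with h0 | h0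
  · rw [abs_of_neg h0] at h
    have := key (-y) (by linarith) h
    rw [Real.sin_neg, Real.cos_neg] at this
    linarith
  · rw [abs_of_pos h0] at h
    exact key y h0 h

theorem gg_ax_eq {y : ℝ} (h0 : y ≠ 0) (h1 : |y| < 2 * Real.pi) :
    (gg (I * y)).re = y * Real.sin y / (2 * (1 - Real.cos y)) - 1 := by
  have hz : (I * y : ℂ) ≠ 0 := by simp [h0]
  have hr : ((1 : ℂ) - Complex.exp (-(I * y))).re = 1 - Real.cos y := by
    rw [Complex.sub_re, Complex.exp_re]
    simp
  have hi : ((1 : ℂ) - Complex.exp (-(I * y))).im = Real.sin y := by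
    rw [Complex.sub_im, Complex.exp_im]
    simp
  have hn : Complex.normSq ((1 : ℂ) - Complex.exp (-(I * y))) = 2 * (1 - Real.cos y) := by
    rw [Complex.normSq_apply, hr, hi]
    have := Real.sin_sq_add_cos_sq y
    linear_combination this
  rw [gg_of_ne hz, Complex.sub_re, Complex.div_re, hr, hi, hn]
  simp

theorem one_sub_cos_pos {y : ℝ} (h0 : y ≠ 0) (h1 : |y| < 2 * Real.pi) : 0 < 1 - Real.cos y := by
  have h2 : Real.cos y ≠ 1 := by
    intro h3
    have := y_sin_lt h0 h1
    have h4 := Real.sin_sq_add_cos_sq y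
    rw [h3] at this h4
    have h5 : Real.sin y = 0 := by nlinarith
    rw [h5] at this
    simp at this
  have h3 := Real.cos_le_one y
  exact sub_pos.2 (lt_of_le_of_ne h3 h2)

theorem gg_ax {y : ℝ} (h0 : y ≠ 0) (h1 : |y| < 2 * Real.pi) : (gg (I * y)).re < 0 := by
  have hc := one_sub_cos_pos h0 h1
  rw [gg_ax_eq h0 h1, sub_neg, div_lt_one (by linarith)]
  exact y_sin_lt h0 h1

end Vale.Agent.P097.H244
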