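import Vale.Agent.P097.H244.Kill

/-! # P097 / H244: the abstract kill, dynamics. -/

set_option linter.all false

open Complex Metric Filter Topology Set
open scoped ComplexConjugate

namespace Vale.Agent.P097.H244

/-- the inverse branch: `σ V` in the half strip with `v (σ V) = -V` -/
structure Inv (v : ℂ → ℂ) (κ L : ℝ) (σ : ℂ → ℂ) : Prop where
  mem : ∀ V ∈ WW κ L, σ V ∈ PP L
  eq : ∀ V ∈ WW κ L, v (σ V) = -V

theorem KD.exists_inv {v : ℂ → ℂ} {κ L lam : ℝ} (K : KD v κ L lam) : ∃ σ, Inv v κ L σ := by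
  have : ∀ V : ℂ, ∃ s, V ∈ WW κ L → (s ∈ PP L ∧ v s = -V) := by
    intro V
    by_cases h : V ∈ WW κ L
    · obtain ⟨s, hs, h2⟩ := K.surj h
      exact ⟨s, fun _ => ⟨hs, h2⟩⟩
    · exact ⟨0, fun h' => absurd h' h⟩
  choose σ hσ using this
  exact ⟨σ, fun V hV => (hσ V hV).1, fun V hV => (hσ V hV).2⟩

/-- the map -/
def TT (v σ : ℂ → ℂ) (V : ℂ) : ℂ := v (-σ V)

namespace Inv

variable {v : ℂ → ℂ} {κ L lam : ℝ} {σ : ℂ → ℂ}

theorem T_eq (H : Inv v κ L σ) (K : KD v κ L lam) {V : ℂ} (hV : V ∈ WW κ L) :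
    TT v σ V = -V - κ * σ V := by
  have h := K.dif (σ V) (PP_sub (H.mem V hV))
  rw [H.eq V hV] at h
  show v (-σ V) = _
  linear_combination -h

theorem lip (H : Inv v κ L σ) (K : KD v κ L lam) {V U : ℂ} (hV : V ∈ WW κ L) (hU : U ∈ WW κ L) :
    κ / 2 * ‖σ V - σ U‖ ≤ ‖V - U‖ := by
  have h := K.lip (H.mem V hV) (H.mem U hU)
  rw [H.eq V hV, H.eq U hU] at h
  rwa [show -V - -U = -(V - U) by ring, norm_neg] at h

theorem lipz (H : Inv v κ L σ) (K : KD v κ L lam) {V : ℂ} (hV : V ∈ WW κ L) :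
    κ / 2 * ‖σ V‖ ≤ ‖V‖ := by
  have h := K.lipz (H.mem V hV)
  rwa [H.eq V hV, norm_neg] at h

theorem Tim (H : Inv v κ L σ) (K : KD v κ L lam) {V : ℂ} (hV : V ∈ WW κ L) :
    |(TT v σ V).im| ≤ |V.im| := by
  have hκ := K.hκ
  have h1 := K.imv (H.mem V hV)
  rw [H.eq V hV, Complex.neg_im] at h1
  have h2 := K.imabs (H.mem V hV)
  rw [H.eq V hV, Complex.neg_im, abs_neg] at h2
  have h3 : (TT v σ V).im = -V.im - κ * (σ V).im := by
    rw [H.T_eq K hV]; simp
  rw [h3]
  set t := (σ V).im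
  set q := V.im
  -- -q t ≥ κ/2 t², |t| κ/2 ≤ |q|
  rcases le_total 0 q with hq | hq
  · have ht : t ≤ 0 := by
      by_contra h
      push Not at h
      nlinarith [mul_pos h h, mul_nonneg hq h.le]
    rw [abs_of_nonneg hq] at h2 ⊢
    rw [abs_of_nonpos ht] at h2
    rw [abs_le]
    constructor <;> nlinarith
  · have ht : 0 ≤ t := by
      by_contra h
      push Not at h
      nlinarith [mul_pos_of_neg_of_neg h h, mul_nonneg_of_nonpos_of_nonpos hq h.le]
    rw [abs_of_nonpos hq] at h2 ⊢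
    rw [abs_of_nonneg ht] at h2
    rw [abs_le]
    constructor <;> nlinarith

theorem Tmem (H : Inv v κ L σ) (K : KD v κ L lam) {V : ℂ} (hV : V ∈ WW κ L) :
    TT v σ V ∈ WW κ L :=
  ⟨K.neg _ (H.mem V hV), (H.Tim K hV).trans_lt hV.2⟩

theorem sq_identity (a b : ℂ) : ‖a‖ ^ 2 - ‖b‖ ^ 2 = ((a + b) * conj (a - b)).re := by
  rw [← Complex.normSq_eq_norm_sq, ← Complex.normSq_eq_norm_sq]
  simp [Complex.normSq_apply]
  ring

theorem ctr_norm (K : KD v κ L lam) {s : ℂ} (hs : s ∈ PP L) : ‖v (-s)‖ < ‖v s‖ := by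
  have h1 := K.ctr s hs
  have h2 := K.dif s (PP_sub hs)
  have h3 := sq_identity (v s) (v (-s))
  rw [h2] at h3
  have h4 : ((v s + v (-s)) * conj ((κ : ℂ) * s)).re = κ * ((v s + v (-s)) * conj s).re := by
    rw [map_mul, Complex.conj_ofReal,
      show (v s + v (-s)) * ((κ : ℂ) * conj s) = (κ : ℂ) * ((v s + v (-s)) * conj s) by ring,
      Complex.re_ofReal_mul]
  rw [h4] at h3
  have h5 : 0 < κ * ((v s + v (-s)) * conj s).re := mul_pos K.hκ h1
  have h6 : ‖v (-s)‖ ^ 2 < ‖v s‖ ^ 2 := by linarith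
  exact lt_of_pow_lt_pow_left₀ 2 (norm_nonneg _) h6

theorem Tnorm (H : Inv v κ L σ) (K : KD v κ L lam) {V : ℂ} (hV : V ∈ WW κ L) :
    ‖TT v σ V‖ < ‖V‖ := by
  have h := ctr_norm K (H.mem V hV)
  rwa [H.eq V hV, norm_neg] at h

theorem Tne (H : Inv v κ L σ) (K : KD v κ L lam) {V : ℂ} (hV : V ∈ WW κ L) : TT v σ V ≠ 0 := by
  intro h
  have := (H.Tmem K hV).1
  rw [h] at this
  simp at this

theorem it_mem (H : Inv v κ L σ) (K : KD v κ L lam) {V : ℂ} (hV : V ∈ WW κ L) (n : ℕ) :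
    (TT v σ)^[n] V ∈ WW κ L := by
  induction n with
  | zero => simpa using hV
  | succ n ih => rw [Function.iterate_succ_apply']; exact H.Tmem K ih

theorem it_im (H : Inv v κ L σ) (K : KD v κ L lam) {V : ℂ} (hV : V ∈ WW κ L) (n : ℕ) :
    |((TT v σ)^[n] V).im| ≤ |V.im| := by
  induction n with
  | zero => simp
  | succ n ih =>
    rw [Function.iterate_succ_apply']
    exact (H.Tim K (H.it_mem K hV n)).trans ih

theorem it_anti (H : Inv v κ L σ) (K : KD v κ L lam) {V : ℂ} (hV : V ∈ WW κ L) :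
    Antitone (fun n => ‖(TT v σ)^[n] V‖) := by
  apply antitone_nat_of_succ_le
  intro n
  simp only [Function.iterate_succ_apply']
  exact (H.Tnorm K (H.it_mem K hV n)).le

/-- all orbits tend to `0` -/
theorem orbit (H : Inv v κ L σ) (K : KD v κ L lam) {V : ℂ} (hV : V ∈ WW κ L) :
    Tendsto (fun n => (TT v σ)^[n] V) atTop (𝓝 0) := by
  have hκ := K.hκ
  set a : ℕ → ℝ := fun n => ‖(TT v σ)^[n] V‖ with ha
  have hanti : Antitone a := H.it_anti K hV
  have hbdd : BddBelow (range a) := ⟨0, by rintro _ ⟨n, rfl⟩; exact norm_nonneg _⟩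
  have hlim := tendsto_atTop_ciInf hanti hbdd
  set ρ := ⨅ n, a n with hρ
  have hρ0 : 0 ≤ ρ := le_ciInf fun n => norm_nonneg _
  rcases eq_or_lt_of_le hρ0 with h0 | h0
  · rw [tendsto_zero_iff_norm_tendsto_zero, h0]
    exact hlim
  exfalso
  set p : ℕ → ℂ := fun n => (TT v σ)^[n] V with hp
  have hpc : ∀ n, p n ∈ closedBall (0 : ℂ) ‖V‖ := by
    intro n
    rw [mem_closedBall_zero_iff]
    have := hanti (Nat.zero_le n)
    simpa [ha] using this
  obtain ⟨P, -, φ, hφ, hP⟩ := (isCompact_closedBall (0 : ℂ) ‖V‖).tendsto_subseq hpc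
  have hPn : ‖P‖ = ρ := tendsto_nhds_unique hP.norm (hlim.comp hφ.tendsto_atTop)
  have hPim : |P.im| < κ * L / 2 := by
    refine lt_of_le_of_lt (le_of_tendsto' ((Complex.continuous_im.tendsto P).comp hP).abs
      (fun n => ?_)) hV.2
    exact H.it_im K hV (φ n)
  have hPre : P.re ≤ 0 := le_of_tendsto' ((Complex.continuous_re.tendsto P).comp hP)
    (fun n => (H.it_mem K hV (φ n)).1.le)
  obtain ⟨s, hs, hσs, hvs⟩ := K.cl (s := fun n => σ (p (φ n))) (z := -P)
    (fun n => H.mem _ (H.it_mem K hV (φ n)))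
    (by
      have : (fun n => v (σ (p (φ n)))) = fun n => -p (φ n) := by
        funext n
        exact H.eq _ (H.it_mem K hV (φ n))
      rw [this]
      exact hP.neg)
    (by rw [Complex.neg_im, abs_neg]; exact hPim) (by rw [Complex.neg_re]; linarith)
    (by
      intro h
      rw [neg_eq_zero] at h
      rw [h, norm_zero] at hPn
      linarith)
  have h1 : Tendsto (fun n => v (-σ (p (φ n)))) atTop (𝓝 (v (-s))) := by
    have hms : -s ∈ SS L := by
      show |(-s).im| < L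
      rw [Complex.neg_im, abs_neg]; exact hs.2
    exact (K.cAt hms).tendsto.comp hσs.neg
  have h2 : ∀ n, v (-σ (p (φ n))) = p (φ n + 1) := by
    intro n
    simp only [hp, Function.iterate_succ_apply']
    rfl
  simp only [h2] at h1
  have h3 : ‖v (-s)‖ = ρ := by
    refine tendsto_nhds_unique h1.norm ?_
    exact hlim.comp (tendsto_atTop_mono (fun n => Nat.le_succ _) hφ.tendsto_atTop)
  have h4 := ctr_norm K hs
  rw [h3, hvs, norm_neg, hPn] at h4
  exact lt_irrefl _ h4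

/-- analyticity of the inverse branch -/
theorem dσ (H : Inv v κ L σ) (K : KD v κ L lam) {V : ℂ} (hV : V ∈ WW κ L) :
    DifferentiableAt ℂ σ V := by
  have hκ := K.hκ
  have hW := (isOpen_WW κ L).mem_nhds hV
  have hcont : ContinuousAt σ V := by
    rw [Metric.continuousAt_iff']
    intro ε hε
    have : ∀ᶠ U in 𝓝 V, U ∈ WW κ L ∧ ‖U - V‖ < κ / 2 * ε := by
      refine (Filter.eventually_of_mem hW fun U h => h).and ?_
      have := Metric.ball_mem_nhds V (show 0 < κ / 2 * ε by positivity)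
      filter_upwards [this] with U hU
      rwa [mem_ball_iff_norm] at hU
    filter_upwards [this] with U hU
    rw [dist_eq_norm]
    have h := H.lip K hU.1 hV
    by_contra h6
    push Not at h6
    nlinarith [hU.2]
  have hs := H.mem V hV
  have hd : HasDerivAt (fun s => -v s) (-deriv v (σ V)) (σ V) := (K.dAt (PP_sub hs)).hasDerivAt.neg
  have hne : -deriv v (σ V) ≠ 0 := by
    intro h
    have := K.der _ hs
    rw [neg_eq_zero] at h
    rw [h] at this
    simp at this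
    linarith
  refine (HasDerivAt.of_local_left_inverse hcont hd hne ?_).differentiableAt
  filter_upwards [hW] with U hU
  rw [H.eq U hU, neg_neg]

theorem dT (H : Inv v κ L σ) (K : KD v κ L lam) {V : ℂ} (hV : V ∈ WW κ L) :
    DifferentiableAt ℂ (TT v σ) V := by
  have : TT v σ =ᶠ[𝓝 V] fun V => -V - κ * σ V := by
    filter_upwards [(isOpen_WW κ L).mem_nhds hV] with U hU
    exact H.T_eq K hU
  rw [this.differentiableAt_iff]
  exact (differentiableAt_id.neg).sub ((H.dσ K hV).const_mul _)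

theorem dit (H : Inv v κ L σ) (K : KD v κ L lam) {V : ℂ} (hV : V ∈ WW κ L) (n : ℕ) :
    DifferentiableAt ℂ ((TT v σ)^[n]) V := by
  induction n with
  | zero => exact differentiableAt_id
  | succ n ih =>
    have : (TT v σ)^[n + 1] = fun V => TT v σ ((TT v σ)^[n] V) := by
      funext V; exact Function.iterate_succ_apply' _ _ _
    rw [this]
    exact DifferentiableAt.comp (g := TT v σ) V (H.dT K (H.it_mem K hV n)) ih

end Inv

end Vale.Agent.P097.H244
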